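import Mathlib

/-!
# P195: vanishing of Ext groups of modules, long exact sequences in elementary form
-/

namespace P195D

open CategoryTheory Abelian

universe u

/-- `Ext^i_A(X, Y) = 0` -/
def EV (A : Type u) [Ring A] (X Y : Type u) [AddCommGroup X] [Module A X]
    [AddCommGroup Y] [Module A Y] (i : ℕ) : Prop :=
  Subsingleton (Ext (ModuleCat.of A X) (ModuleCat.of A Y) i)

variable {A : Type u} [Ring A]
variable {X Y Z W V : Type u} [AddCommGroup X] [Module A X] [AddCommGroup Y] [Module A Y]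
  [AddCommGroup Z] [Module A Z] [AddCommGroup W] [Module A W] [AddCommGroup V] [Module A V]

theorem ev_iff {n : ℕ} : EV A X W n ↔ ∀ x : Ext (ModuleCat.of A X) (ModuleCat.of A W) n, x = 0 := by
  constructor
  · intro h x
    have h1 : Subsingleton (Ext (ModuleCat.of A X) (ModuleCat.of A W) n) := h
    exact Subsingleton.elim _ _
  · intro h
    exact ⟨fun a b => (h a).trans (h b).symm⟩

/-- short exact sequences of modules -/
theorem ses {f : X →ₗ[A] Y} {g : Y →ₗ[A] Z} (hf : Function.Injective f)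
    (hg : Function.Surjective g) (h : Function.Exact f g) :
    (ShortComplex.mk (ModuleCat.ofHom f) (ModuleCat.ofHom g) (by
      ext x
      exact h.apply_apply_eq_zero x)).ShortExact := by
  refine ShortComplex.ShortExact.mk' ?_ ?_ ?_
  · rw [ShortComplex.ShortExact.moduleCat_exact_iff_function_exact]
    exact h
  · rw [ModuleCat.mono_iff_injective]; exact hf
  · rw [ModuleCat.epi_iff_surjective]; exact hg

theorem ev_zero_iff : EV A X W 0 ↔ ∀ f : X →ₗ[A] W, f = 0 := by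
  constructor
  · intro h f
    have h1 : Subsingleton (Ext (ModuleCat.of A X) (ModuleCat.of A W) 0) := h
    have h2 : Ext.mk₀ (ModuleCat.ofHom f) = Ext.mk₀ (ModuleCat.ofHom (0 : X →ₗ[A] W)) :=
      Subsingleton.elim _ _
    have h3 := (Ext.mk₀_bijective _ _).1 h2
    have h4 := congrArg ModuleCat.Hom.hom h3
    exact h4
  · intro h
    refine ⟨fun a b => ?_⟩
    obtain ⟨a', rfl⟩ := (Ext.mk₀_bijective _ _).2 a
    obtain ⟨b', rfl⟩ := (Ext.mk₀_bijective _ _).2 b
    have ha : a'.hom = 0 := h a'.hom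
    have hb : b'.hom = 0 := h b'.hom
    have hab : a' = b' := ModuleCat.hom_ext (ha.trans hb.symm)
    rw [hab]

theorem EV.of_projective [Module.Projective A X] (n : ℕ) : EV A X W (n + 1) := by
  have : Projective (ModuleCat.of A X) := (IsProjective.iff_projective X).1 inferInstance
  exact Ext.subsingleton_of_projective _ _ n

section seq

variable {f : X →ₗ[A] Y} {g : Y →ₗ[A] Z} (hf : Function.Injective f)
  (hg : Function.Surjective g) (h : Function.Exact f g)

include hf hg h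

theorem EV.mid {n : ℕ} (h1 : EV A X W n) (h3 : EV A Z W n) : EV A Y W n := by
  rw [ev_iff] at h1 h3 ⊢
  intro x
  obtain ⟨z, hz⟩ := Ext.contravariant_sequence_exact₂ (ses hf hg h) (ModuleCat.of A W) x (h1 _)
  have hz0 : z = 0 := h3 z
  rw [← hz, hz0, Ext.comp_zero]

theorem EV.left {n : ℕ} (h2 : EV A Y W n) (h3 : EV A Z W (n + 1)) : EV A X W n := by
  rw [ev_iff] at h2 h3 ⊢
  intro x
  obtain ⟨y, hy⟩ := Ext.contravariant_sequence_exact₁ (ses hf hg h) (ModuleCat.of A W) x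
    (by lia : 1 + n = n + 1) (h3 _)
  have hy0 : y = 0 := h2 y
  rw [← hy, hy0, Ext.comp_zero]

theorem EV.right {n : ℕ} (h1 : EV A X W n) (h2 : EV A Y W (n + 1)) : EV A Z W (n + 1) := by
  rw [ev_iff] at h1 h2 ⊢
  intro x
  obtain ⟨y, hy⟩ := Ext.contravariant_sequence_exact₃ (ses hf hg h) (ModuleCat.of A W) x
    (h2 _) (by lia : 1 + n = n + 1)
  have hy0 : y = 0 := h1 y
  rw [← hy, hy0, Ext.comp_zero]

/-- extension of maps when `Ext^1(Z, W) = 0` -/
theorem EV.extend (h3 : EV A Z W 1) (u : X →ₗ[A] W) : ∃ v : Y →ₗ[A] W, v ∘ₗ f = u := by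
  rw [ev_iff] at h3
  obtain ⟨y, hy⟩ := Ext.contravariant_sequence_exact₁ (ses hf hg h) (ModuleCat.of A W)
    (Ext.mk₀ (ModuleCat.ofHom u)) (by lia : 1 + 0 = 1) (h3 _)
  obtain ⟨v, rfl⟩ := (Ext.mk₀_bijective _ _).2 y
  refine ⟨v.hom, ?_⟩
  rw [Ext.mk₀_comp_mk₀] at hy
  have h4 := (Ext.mk₀_bijective _ _).1 hy
  exact congrArg ModuleCat.Hom.hom h4

/-- the converse when `Ext^1(Y, W) = 0` -/
theorem EV.of_extend (h2 : EV A Y W 1) (he : ∀ u : X →ₗ[A] W, ∃ v : Y →ₗ[A] W, v ∘ₗ f = u) :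
    EV A Z W 1 := by
  rw [ev_iff] at h2 ⊢
  intro x
  obtain ⟨y, hy⟩ := Ext.contravariant_sequence_exact₃ (ses hf hg h) (ModuleCat.of A W) x
    (h2 _) (by lia : 1 + 0 = 1)
  obtain ⟨u, rfl⟩ := (Ext.mk₀_bijective _ _).2 y
  obtain ⟨v, hv⟩ := he u.hom
  have hu : u = ModuleCat.ofHom f ≫ ModuleCat.ofHom v := by
    apply ModuleCat.hom_ext
    exact hv.symm
  rw [← hy, hu, ← Ext.mk₀_comp_mk₀]
  have h0 := ShortComplex.ShortExact.extClass_comp (ses hf hg h)
  rw [← Ext.comp_assoc_of_second_deg_zero]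
  rw [h0, Ext.zero_comp]

end seq

/-- a retract of the first variable -/
theorem EV.retract_left {n : ℕ} (i : X →ₗ[A] Y) (p : Y →ₗ[A] X) (hpi : ∀ x, p (i x) = x)
    (h : EV A Y W n) : EV A X W n := by
  rw [ev_iff] at h ⊢
  intro x
  have h1 : (Ext.mk₀ (ModuleCat.ofHom i)).comp ((Ext.mk₀ (ModuleCat.ofHom p)).comp x
      (zero_add n)) (zero_add n) = x := by
    rw [Ext.mk₀_comp_mk₀_assoc]
    have : ModuleCat.ofHom i ≫ ModuleCat.ofHom p = 𝟙 (ModuleCat.of A X) := by
      apply ModuleCat.hom_ext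
      ext x
      exact hpi x
    rw [this, Ext.mk₀_id_comp]
  have h2 := h ((Ext.mk₀ (ModuleCat.ofHom p)).comp x (zero_add n))
  rw [← h1, h2, Ext.comp_zero]

/-- a retract of the second variable -/
theorem EV.retract_right {n : ℕ} (i : W →ₗ[A] V) (p : V →ₗ[A] W) (hpi : ∀ x, p (i x) = x)
    (h : EV A X V n) : EV A X W n := by
  rw [ev_iff] at h ⊢
  intro x
  have h1 : (x.comp (Ext.mk₀ (ModuleCat.ofHom i)) (add_zero n)).comp
      (Ext.mk₀ (ModuleCat.ofHom p)) (add_zero n) = x := by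
    rw [Ext.comp_assoc_of_second_deg_zero, Ext.mk₀_comp_mk₀]
    have : ModuleCat.ofHom i ≫ ModuleCat.ofHom p = 𝟙 (ModuleCat.of A W) := by
      apply ModuleCat.hom_ext
      ext x
      exact hpi x
    rw [this, Ext.comp_mk₀_id]
  have h2 := h (x.comp (Ext.mk₀ (ModuleCat.ofHom i)) (add_zero n))
  rw [← h1, h2, Ext.zero_comp]

theorem EV.congr_left {n : ℕ} (e : X ≃ₗ[A] Y) (h : EV A Y W n) : EV A X W n :=
  h.retract_left e.toLinearMap e.symm.toLinearMap (fun x => e.symm_apply_apply x)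

theorem EV.congr_right {n : ℕ} (e : W ≃ₗ[A] V) (h : EV A X V n) : EV A X W n :=
  h.retract_right e.toLinearMap e.symm.toLinearMap (fun x => e.symm_apply_apply x)

theorem EV.prod_left {n : ℕ} (h1 : EV A X W n) (h2 : EV A Y W n) : EV A (X × Y) W n :=
  EV.mid (f := LinearMap.inl A X Y) (g := LinearMap.snd A X Y) LinearMap.inl_injective
    LinearMap.snd_surjective (fun x => by
      constructor
      · intro hx
        exact ⟨x.1, Prod.ext rfl hx.symm⟩
      · rintro ⟨y, rfl⟩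
        rfl) h1 h2

end P195D
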