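import Mathlib
import Vale.Agent.P195D.ExtTools

/-!
# P195: corner rings `eAe` and the exact functor `N ↦ eN`
-/

namespace P195D

open CategoryTheory Abelian

universe u

variable {A : Type u} [Ring A] {e : A}

/-- the additive group `eN = {n | e n = n}` -/
def eM (e : A) (N : Type u) [AddCommGroup N] [Module A N] : AddSubgroup N where
  carrier := {n | e • n = n}
  zero_mem' := smul_zero e
  add_mem' := by
    intro a b ha hb
    show e • (a + b) = a + b
    rw [smul_add, ha, hb]
  neg_mem' := by
    intro a ha
    show e • (-a) = -a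
    rw [smul_neg, ha]

variable {N N' N'' : Type u} [AddCommGroup N] [Module A N] [AddCommGroup N'] [Module A N']
  [AddCommGroup N''] [Module A N'']

theorem mem_eM {n : N} : n ∈ eM e N ↔ e • n = n := Iff.rfl

theorem smul_mem_eM (he : IsIdempotentElem e) (n : N) : e • n ∈ eM e N := by
  rw [mem_eM, smul_smul, he]

theorem corner_left (he : IsIdempotentElem e) (r : he.Corner) : e * r.1 = r.1 :=
  ((Subsemigroup.mem_corner_iff he).1 r.2).1

theorem corner_right (he : IsIdempotentElem e) (r : he.Corner) : r.1 * e = r.1 :=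
  ((Subsemigroup.mem_corner_iff he).1 r.2).2

/-- elements of the corner -/
def toCorner (he : IsIdempotentElem e) (a : A) : he.Corner :=
  ⟨e * a * e, (Subsemigroup.mem_corner_iff he).2 ⟨by
    rw [← mul_assoc, ← mul_assoc, he], by rw [mul_assoc, he]⟩⟩

theorem toCorner_val (he : IsIdempotentElem e) (a : A) : (toCorner he a).1 = e * a * e := rfl

theorem corner_one (he : IsIdempotentElem e) : (1 : he.Corner).1 = e := rfl

theorem corner_mul (he : IsIdempotentElem e) (r s : he.Corner) : (r * s).1 = r.1 * s.1 := rfl

theorem corner_add (he : IsIdempotentElem e) (r s : he.Corner) : (r + s).1 = r.1 + s.1 := rfl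

theorem corner_zero (he : IsIdempotentElem e) : (0 : he.Corner).1 = 0 := rfl

instance eModule (he : IsIdempotentElem e) : Module he.Corner (eM e N) where
  smul r n := ⟨r.1 • n.1, by
    rw [mem_eM, smul_smul, corner_left he r]⟩
  one_smul n := Subtype.ext (by
    show e • n.1 = n.1
    exact n.2)
  mul_smul r s n := Subtype.ext (by
    show (r.1 * s.1) • n.1 = r.1 • s.1 • n.1
    rw [smul_smul])
  smul_zero r := Subtype.ext (smul_zero r.1)
  smul_add r a b := Subtype.ext (smul_add r.1 a.1 b.1)
  add_smul r s n := Subtype.ext (add_smul r.1 s.1 n.1)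
  zero_smul n := Subtype.ext (zero_smul A n.1)

theorem eModule_smul (he : IsIdempotentElem e) (r : he.Corner) (n : eM e N) :
    (r • n).1 = r.1 • n.1 := rfl

/-- the functor on maps -/
def eMap (he : IsIdempotentElem e) (f : N →ₗ[A] N') : eM e N →ₗ[he.Corner] eM e N' where
  toFun n := ⟨f n.1, by rw [mem_eM, ← map_smul, mem_eM.1 n.2]⟩
  map_add' a b := Subtype.ext (f.map_add a.1 b.1)
  map_smul' r a := Subtype.ext (f.map_smul r.1 a.1)

theorem eMap_val (he : IsIdempotentElem e) (f : N →ₗ[A] N') (n : eM e N) :
    (eMap he f n).1 = f n.1 := rfl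

theorem eMap_injective (he : IsIdempotentElem e) (f : N →ₗ[A] N') (hf : Function.Injective f) :
    Function.Injective (eMap he f) := by
  intro a b hab
  have h1 := congrArg Subtype.val hab
  exact Subtype.ext (hf h1)

theorem eMap_surjective (he : IsIdempotentElem e) (f : N →ₗ[A] N')
    (hf : Function.Surjective f) : Function.Surjective (eMap he f) := by
  intro b
  obtain ⟨a, ha⟩ := hf b.1
  refine ⟨⟨e • a, smul_mem_eM he a⟩, Subtype.ext ?_⟩
  rw [eMap_val, map_smul, ha, mem_eM.1 b.2]

theorem eMap_exact (he : IsIdempotentElem e) (f : N →ₗ[A] N') (g : N' →ₗ[A] N'')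
    (h : Function.Exact f g) : Function.Exact (eMap he f) (eMap he g) := by
  intro b
  constructor
  · intro hb
    have h1 : g b.1 = 0 := congrArg Subtype.val hb
    obtain ⟨a, ha⟩ := (h b.1).1 h1
    refine ⟨⟨e • a, smul_mem_eM he a⟩, Subtype.ext ?_⟩
    rw [eMap_val, map_smul, ha, mem_eM.1 b.2]
  · rintro ⟨a, rfl⟩
    exact Subtype.ext (h.apply_apply_eq_zero a.1)

/-- the left ideal `Ae` -/
def lI (e : A) : Submodule A A where
  carrier := {a | a * e = a}
  zero_mem' := zero_mul e
  add_mem' := by
    intro a b ha hb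
    show (a + b) * e = a + b
    rw [add_mul, ha, hb]
  smul_mem' := by
    intro c a ha
    show (c * a) * e = c * a
    rw [mul_assoc, ha]

theorem mem_lI {a : A} : a ∈ lI e ↔ a * e = a := Iff.rfl

/-- the projection of `A` onto `Ae` -/
def toLI (he : IsIdempotentElem e) : A →ₗ[A] lI e where
  toFun a := ⟨a * e, by rw [mem_lI, mul_assoc, he]⟩
  map_add' a b := Subtype.ext (add_mul a b e)
  map_smul' r a := Subtype.ext (mul_assoc r a e)

theorem toLI_val (he : IsIdempotentElem e) (a : A) : (toLI he a).1 = a * e := rfl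

theorem projective_lI (he : IsIdempotentElem e) : Module.Projective A (lI e) :=
  Module.Projective.of_split (lI e).subtype (toLI he) (by
    ext a
    exact a.2)

theorem finite_lI (he : IsIdempotentElem e) : Module.Finite A (lI e) := by
  refine Module.Finite.of_surjective (toLI he) ?_
  intro a
  exact ⟨a.1, Subtype.ext a.2⟩

theorem projective_lI_pow (he : IsIdempotentElem e) (n : ℕ) :
    Module.Projective A (Fin n → lI e) :=
  Module.Projective.of_split (P := Fin n → lI e) (M := Fin n → A)
    (LinearMap.pi fun i => (lI e).subtype ∘ₗ LinearMap.proj i)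
    (LinearMap.pi fun i => toLI he ∘ₗ LinearMap.proj i) (by
    apply LinearMap.ext
    intro a
    funext i
    exact Subtype.ext (a i).2)

/-- `e (Ae)^n` is free over the corner -/
def eFree (he : IsIdempotentElem e) (n : ℕ) :
    (Fin n → he.Corner) ≃ₗ[he.Corner] eM e (Fin n → lI e) where
  toFun r := ⟨fun i => ⟨(r i).1, corner_right he (r i)⟩, by
    rw [mem_eM]
    funext i
    exact Subtype.ext (corner_left he (r i))⟩
  map_add' r s := rfl
  map_smul' c r := rfl
  invFun p := fun i => ⟨(p.1 i).1, (Subsemigroup.mem_corner_iff he).2 ⟨by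
    have h1 := congrFun (mem_eM.1 p.2) i
    exact congrArg Subtype.val h1, (p.1 i).2⟩⟩
  left_inv r := rfl
  right_inv p := rfl

theorem projective_eFree (he : IsIdempotentElem e) (n : ℕ) :
    Module.Projective he.Corner (eM e (Fin n → lI e)) :=
  Module.Projective.of_equiv (eFree he n)

end P195D
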