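import Mathlib
import Vale.Agent.P195D.ExtTools
import Vale.Agent.P195D.Corner

/-!
# P195: if the modules killed by `e` have no extensions into `A` then `eA(1-e)` over `eAe`
violates the Auslander-Reiten conjecture
-/

namespace P195D

open CategoryTheory Abelian

universe u

variable {A : Type u} [Ring A] {e : A}

variable {Y : Type u} [AddCommGroup Y] [Module A Y]

/-- the map `(Ae)^n → Y` given by elements `x_i` of `Y` -/
def cov {n : ℕ} (e : A) (x : Fin n → Y) : (Fin n → lI e) →ₗ[A] Y where
  toFun a := ∑ i, (a i).1 • x i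
  map_add' a b := by
    rw [← Finset.sum_add_distrib]
    refine Finset.sum_congr rfl fun i _ => ?_
    exact add_smul _ _ _
  map_smul' c a := by
    simp only [RingHom.id_apply]
    rw [Finset.smul_sum]
    refine Finset.sum_congr rfl fun i _ => ?_
    exact mul_smul _ _ _

theorem cov_apply {n : ℕ} (x : Fin n → Y) (a : Fin n → lI e) :
    cov e x a = ∑ i, (a i).1 • x i := rfl

/-- the submodule `A e Y` -/
def tr (e : A) (Y : Type u) [AddCommGroup Y] [Module A Y] : Submodule A Y :=
  Submodule.span A {y : Y | e • y = y}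

theorem mem_tr {y : Y} (hy : e • y = y) : y ∈ tr e Y := Submodule.subset_span hy

theorem quot_tr (he : IsIdempotentElem e) (z : Y ⧸ tr e Y) : e • z = 0 := by
  obtain ⟨y, rfl⟩ := Submodule.Quotient.mk_surjective _ z
  rw [← Submodule.Quotient.mk_smul, Submodule.Quotient.mk_eq_zero]
  exact mem_tr (by rw [smul_smul, he])

theorem exists_cover [IsNoetherianRing A] [Module.Finite A Y] (he : IsIdempotentElem e) :
    ∃ (n : ℕ) (x : Fin n → Y), (∀ i, e • x i = x i) ∧
      LinearMap.range (cov e x) = tr e Y := by
  have hfg : (tr e Y).FG := IsNoetherian.noetherian _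
  obtain ⟨s, hs, hspan⟩ := (Submodule.fg_span_iff_fg_span_finset_subset _).1 hfg
  refine ⟨s.card, fun i => (s.equivFin.symm i).1, fun i => hs (s.equivFin.symm i).2, ?_⟩
  apply le_antisymm
  · rintro _ ⟨a, rfl⟩
    rw [cov_apply]
    refine Submodule.sum_mem _ fun i _ => Submodule.smul_mem _ _ ?_
    exact mem_tr (hs (s.equivFin.symm i).2)
  · rw [tr, hspan, Submodule.span_le]
    intro y hy
    refine ⟨Pi.single (s.equivFin ⟨y, hy⟩) (toLI he 1), ?_⟩
    rw [cov_apply, Finset.sum_eq_single (s.equivFin ⟨y, hy⟩)]
    · rw [Pi.single_eq_same, Equiv.symm_apply_apply, toLI_val, one_mul]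
      exact hs hy
    · intro j _ hj
      rw [Pi.single_eq_of_ne hj]
      exact zero_smul A _
    · intro h
      exact absurd (Finset.mem_univ _) h

/-- hypothesis: modules killed by `e` are perpendicular to `A` -/
def Perp (e : A) : Prop :=
  ∀ (Z : Type u) [AddCommGroup Z] [Module A Z], Module.Finite A Z → (∀ z : Z, e • z = 0) →
    ∀ i, EV A Z A i

theorem unique_ext [Module.Finite A Y] (he : IsIdempotentElem e) (hP : Perp e)
    (f : Y →ₗ[A] A) (hf : ∀ y : Y, e • y = y → f y = 0) : f = 0 := by
  have h1 : tr e Y ≤ LinearMap.ker f := by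
    rw [tr, Submodule.span_le]
    intro y hy
    exact hf y hy
  have h2 := (ev_zero_iff.1 (hP (Y ⧸ tr e Y) inferInstance (quot_tr he) 0))
    ((tr e Y).liftQ f h1)
  ext y
  have h3 := LinearMap.congr_fun h2 (Submodule.Quotient.mk y)
  exact h3

theorem zero_of_perp (hP : Perp e) [IsNoetherianRing A] (b : A)
    (hb : ∀ c : A, e * (c * b) = 0) : b = 0 := by
  have h1 := ev_zero_iff.1 (hP (Submodule.span A {b}) inferInstance (by
    rintro ⟨z, hz⟩
    obtain ⟨c, rfl⟩ := Submodule.mem_span_singleton.1 hz
    exact Subtype.ext (hb c)) 0) (Submodule.span A {b}).subtype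
  have h2 := LinearMap.congr_fun h1 ⟨b, Submodule.mem_span_singleton_self b⟩
  exact h2

/-- exactness of `ker → P → range` -/
theorem exact_ker_range {P : Type u} [AddCommGroup P] [Module A P] (g : P →ₗ[A] Y) :
    Function.Exact (LinearMap.ker g).subtype g.rangeRestrict := by
  rw [LinearMap.exact_iff, LinearMap.ker_rangeRestrict, Submodule.range_subtype]

theorem exact_sub_quot (I : Submodule A Y) : Function.Exact I.subtype I.mkQ := by
  rw [LinearMap.exact_iff, Submodule.ker_mkQ, Submodule.range_subtype]

theorem full_ext [IsNoetherianRing A] [Module.Finite A Y] (he : IsIdempotentElem e)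
    (hP : Perp e) (φ : eM e Y →ₗ[he.Corner] eM e A) :
    ∃ ψ : Y →ₗ[A] A, ∀ y : eM e Y, ψ y.1 = (φ y).1 := by
  obtain ⟨n, x, hx, hr⟩ := exists_cover (Y := Y) he
  let X : Fin n → eM e Y := fun i => ⟨x i, hx i⟩
  let b : (Fin n → lI e) →ₗ[A] A := cov e (fun i => (φ (X i)).1)
  -- elements of the corner from elements of `Ae`
  have key : ∀ (c : A) (a : Fin n → lI e) (h : e • (c • cov e x a) = c • cov e x a),
      e * (c * b a) = (φ ⟨c • cov e x a, h⟩).1 := by
    intro c a hca
    have h1 : (⟨c • cov e x a, hca⟩ : eM e Y) = ∑ i, (toCorner he (c * (a i).1)) • X i := by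
      apply Subtype.ext
      rw [AddSubgroup.val_finsetSum]
      show c • cov e x a = _
      rw [← hca, cov_apply, Finset.smul_sum, Finset.smul_sum]
      refine Finset.sum_congr rfl fun i _ => ?_
      rw [eModule_smul, toCorner_val]
      show e • c • (a i).1 • x i = (e * (c * (a i).1) * e) • x i
      rw [mul_smul, hx i, smul_smul, smul_smul, mul_assoc]
    rw [h1, map_sum, AddSubgroup.val_finsetSum]
    show e * (c * cov e (fun i => (φ (X i)).1) a) = _
    rw [cov_apply, Finset.mul_sum, Finset.mul_sum]
    refine Finset.sum_congr rfl fun i _ => ?_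
    rw [map_smul, eModule_smul, toCorner_val]
    have h2 : e * (φ (X i)).1 = (φ (X i)).1 := (φ (X i)).2
    show e * (c * ((a i).1 * (φ (X i)).1)) = (e * (c * (a i).1) * e) * (φ (X i)).1
    rw [mul_assoc _ e, h2]
    simp only [mul_assoc]
  -- `b` kills the kernel
  have hker : LinearMap.ker (cov e x) ≤ LinearMap.ker b := by
    intro a ha
    rw [LinearMap.mem_ker] at ha ⊢
    refine zero_of_perp hP _ fun c => ?_
    have h3 : e • (c • cov e x a) = c • cov e x a := by
      rw [ha, smul_zero, smul_zero]
    rw [key c a h3]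
    have h4 : (⟨c • cov e x a, h3⟩ : eM e Y) = 0 := by
      apply Subtype.ext
      show c • cov e x a = 0
      rw [ha, smul_zero]
    rw [h4, map_zero]
    rfl
  -- descend to the range
  have hk2 : LinearMap.ker (cov e x).rangeRestrict ≤ LinearMap.ker b := by
    rw [LinearMap.ker_rangeRestrict]
    exact hker
  obtain ⟨b', hb'⟩ : ∃ b' : LinearMap.range (cov e x) →ₗ[A] A,
      ∀ a, b' ((cov e x).rangeRestrict a) = b a := by
    refine ⟨((LinearMap.ker (cov e x)).liftQ b hker) ∘ₗ
      ((cov e x).quotKerEquivRange.symm.toLinearMap), fun a => ?_⟩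
    have h5 : (cov e x).quotKerEquivRange.symm ((cov e x).rangeRestrict a) =
        Submodule.Quotient.mk a := by
      rw [LinearEquiv.symm_apply_eq]
      apply Subtype.ext
      rfl
    show ((LinearMap.ker (cov e x)).liftQ b hker)
      ((cov e x).quotKerEquivRange.symm ((cov e x).rangeRestrict a)) = b a
    rw [h5]
    rfl
  -- extend to `Y`
  have hq : ∀ z : Y ⧸ LinearMap.range (cov e x), e • z = 0 := by
    rw [hr]
    exact quot_tr he
  obtain ⟨ψ, hψ⟩ := EV.extend (W := A) (Submodule.injective_subtype _)
    (Submodule.mkQ_surjective _) (exact_sub_quot (LinearMap.range (cov e x)))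
    (hP _ inferInstance hq 1) b'
  refine ⟨ψ, fun y => ?_⟩
  have hy : y.1 ∈ LinearMap.range (cov e x) := by
    rw [hr]
    exact mem_tr y.2
  obtain ⟨a, ha⟩ := hy
  have h6 : ψ y.1 = b a := by
    have h7 := LinearMap.congr_fun hψ ((cov e x).rangeRestrict a)
    rw [hb' a] at h7
    rw [← h7, ← ha]
    rfl
  have h8 : e * ψ y.1 = ψ y.1 := by
    have := ψ.map_smul e y.1
    rw [mem_eM.1 y.2] at this
    exact this.symm
  have h9 : e • ((1 : A) • cov e x a) = (1 : A) • cov e x a := by
    rw [one_smul, ha]
    exact y.2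
  have h10 := key 1 a h9
  rw [one_mul] at h10
  rw [← h8, h6, h10]
  congr 2
  apply Subtype.ext
  show (1 : A) • cov e x a = y.1
  rw [one_smul, ha]

/-- `eY = e(AeY)` -/
def eRange (he : IsIdempotentElem e) {n : ℕ} {x : Fin n → Y}
    (hr : LinearMap.range (cov e x) = tr e Y) :
    eM e Y ≃ₗ[he.Corner] eM e (LinearMap.range (cov e x)) where
  toFun y := ⟨⟨y.1, by rw [hr]; exact mem_tr y.2⟩, by
    rw [mem_eM]
    exact Subtype.ext y.2⟩
  map_add' _ _ := rfl
  map_smul' _ _ := rfl
  invFun y := ⟨y.1.1, by
    have h1 := mem_eM.1 y.2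
    rw [mem_eM]
    exact congrArg Subtype.val h1⟩
  left_inv _ := rfl
  right_inv _ := rfl

/-- `Ext` vanishing into `A` passes to the corner -/
theorem ev_corner [IsNoetherianRing A] (he : IsIdempotentElem e) (hP : Perp e) :
    ∀ (i : ℕ) (Y : Type u) [AddCommGroup Y] [Module A Y], Module.Finite A Y →
      EV A Y A (i + 1) → EV he.Corner (eM e Y) (eM e A) (i + 1) := by
  intro i
  induction i with
  | zero =>
    intro Y _ _ hfin hY
    obtain ⟨n, x, hx, hr⟩ := exists_cover (Y := Y) he
    have hq : ∀ z : Y ⧸ LinearMap.range (cov e x), e • z = 0 := by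
      rw [hr]
      exact quot_tr he
    have hI : EV A (LinearMap.range (cov e x)) A (0 + 1) :=
      EV.left (Submodule.injective_subtype _) (Submodule.mkQ_surjective _) (exact_sub_quot _)
        hY (hP _ inferInstance hq _)
    have hK : Module.Finite A (LinearMap.ker (cov e x)) := inferInstance
    have hI2 : EV he.Corner (eM e (LinearMap.range (cov e x))) (eM e A) (0 + 1) := by
      refine EV.of_extend (eMap_injective he _ (Submodule.injective_subtype _))
        (eMap_surjective he _ (cov e x).surjective_rangeRestrict)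
        (eMap_exact he _ _ (exact_ker_range (cov e x))) ?_ ?_
      · have := projective_eFree he n
        exact EV.of_projective 0
      · intro v
        obtain ⟨ψ, hψ⟩ := full_ext he hP v
        obtain ⟨w, hw⟩ := EV.extend (Submodule.injective_subtype _)
          (cov e x).surjective_rangeRestrict (exact_ker_range (cov e x)) hI ψ
        refine ⟨eMap he w, ?_⟩
        ext y
        have h1 := LinearMap.congr_fun hw y.1
        have h2 := hψ y
        show w ((LinearMap.ker (cov e x)).subtype y.1) = _
        rw [← h2]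
        exact h1
    refine hI2.congr_left ?_
    exact eRange he hr
  | succ i ih =>
    intro Y _ _ hfin hY
    obtain ⟨n, x, hx, hr⟩ := exists_cover (Y := Y) he
    have hq : ∀ z : Y ⧸ LinearMap.range (cov e x), e • z = 0 := by
      rw [hr]
      exact quot_tr he
    have hI : EV A (LinearMap.range (cov e x)) A (i + 1 + 1) :=
      EV.left (Submodule.injective_subtype _) (Submodule.mkQ_surjective _) (exact_sub_quot _)
        hY (hP _ inferInstance hq _)
    have hK : Module.Finite A (LinearMap.ker (cov e x)) := inferInstance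
    have hpr := projective_lI_pow he n
    have hKE : EV A (LinearMap.ker (cov e x)) A (i + 1) :=
      EV.left (Submodule.injective_subtype _) (cov e x).surjective_rangeRestrict
        (exact_ker_range (cov e x)) (EV.of_projective i) hI
    have hI2 : EV he.Corner (eM e (LinearMap.range (cov e x))) (eM e A) (i + 1 + 1) := by
      refine EV.right (eMap_injective he _ (Submodule.injective_subtype _))
        (eMap_surjective he _ (cov e x).surjective_rangeRestrict)
        (eMap_exact he _ _ (exact_ker_range (cov e x))) (ih _ hK hKE) ?_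
      have := projective_eFree he n
      exact EV.of_projective (i + 1)
    refine hI2.congr_left ?_
    exact eRange he hr

/-- the module `eA(1-e)` over `eAe` -/
abbrev cM (e : A) : Type u := eM e (lI (1 - e))

theorem one_sub_idem (he : IsIdempotentElem e) : IsIdempotentElem (1 - e) := he.one_sub

/-- retraction `eA → eAe` -/
def toR (he : IsIdempotentElem e) : eM e A →ₗ[he.Corner] he.Corner where
  toFun a := ⟨a.1 * e, (Subsemigroup.mem_corner_iff he).2 ⟨by
    have h1 : e * a.1 = a.1 := a.2
    rw [← mul_assoc, h1], by rw [mul_assoc, he]⟩⟩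
  map_add' a b := Subtype.ext (add_mul a.1 b.1 e)
  map_smul' r a := Subtype.ext (mul_assoc r.1 a.1 e)

/-- inclusion `eAe → eA` -/
def ofR (he : IsIdempotentElem e) : he.Corner →ₗ[he.Corner] eM e A where
  toFun a := ⟨a.1, corner_left he a⟩
  map_add' _ _ := rfl
  map_smul' _ _ := rfl

theorem toR_ofR (he : IsIdempotentElem e) (r : he.Corner) : toR he (ofR he r) = r :=
  Subtype.ext (corner_right he r)

/-- the module `M` satisfies the vanishing condition -/
theorem ar_vanish [IsNoetherianRing A] (he : IsIdempotentElem e) (hP : Perp e) (i : ℕ) :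
    EV he.Corner (cM e) (cM e) (i + 1) ∧ EV he.Corner (cM e) he.Corner (i + 1) := by
  have hpr := projective_lI he.one_sub
  have hfin := finite_lI he.one_sub
  have h1 : EV he.Corner (cM e) (eM e A) (i + 1) :=
    ev_corner he hP i _ hfin (EV.of_projective i)
  constructor
  · refine h1.retract_right (eMap he (lI (1 - e)).subtype) (eMap he (toLI he.one_sub)) ?_
    intro x
    apply Subtype.ext
    apply Subtype.ext
    exact x.1.2
  · exact h1.retract_right (ofR he) (toR he) (toR_ofR he)

theorem finite_cM [IsNoetherianRing A] (he : IsIdempotentElem e) :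
    Module.Finite he.Corner (cM e) := by
  have hfin := finite_lI he.one_sub
  obtain ⟨n, x, hx, hr⟩ := exists_cover (Y := lI (1 - e)) he
  refine Module.Finite.of_surjective (M := Fin n → he.Corner)
    ((eRange he hr).symm.toLinearMap ∘ₗ (eMap he (cov e x).rangeRestrict) ∘ₗ
      (eFree he n).toLinearMap) ?_
  exact (eRange he hr).symm.surjective.comp
    ((eMap_surjective he _ (cov e x).surjective_rangeRestrict).comp (eFree he n).surjective)

theorem not_projective_cM [IsNoetherianRing A] (he : IsIdempotentElem e) (hP : Perp e)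
    (S : Type u) [AddCommGroup S] [Module A S] (hS : ∀ s : S, e • s = 0) (s0 : S) (hs0 : s0 ≠ 0) :
    ¬ Module.Projective he.Corner (cM e) := by
  intro hproj
  have hfin := finite_lI he.one_sub
  obtain ⟨n, x, hx, hr⟩ := exists_cover (Y := lI (1 - e)) he
  -- a section of the cover
  obtain ⟨sec, hsec⟩ := Module.projective_lifting_property
    ((eRange he hr).symm.toLinearMap ∘ₗ (eMap he (cov e x).rangeRestrict))
    (LinearMap.id : cM e →ₗ[he.Corner] cM e)
    ((eRange he hr).symm.surjective.comp
      (eMap_surjective he _ (cov e x).surjective_rangeRestrict))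
  -- its components
  let comp : Fin n → (cM e →ₗ[he.Corner] eM e A) := fun i =>
    (eMap he ((lI e).subtype ∘ₗ LinearMap.proj i)) ∘ₗ sec
  choose ψ hψ using fun i => full_ext he hP (comp i)
  let Ψ : lI (1 - e) →ₗ[A] lI (1 - e) :=
    (cov e x) ∘ₗ (LinearMap.pi fun i => toLI he ∘ₗ ψ i)
  have hΨ : (lI (1 - e)).subtype ∘ₗ Ψ - (lI (1 - e)).subtype = 0 := by
    apply unique_ext he hP
    intro y hy
    have h1 : Ψ y = y := by
      have h2 := LinearMap.congr_fun hsec ⟨y, hy⟩
      have h3 := congrArg Subtype.val h2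
      change cov e x (sec ⟨y, hy⟩).1 = y at h3
      show cov e x (fun i => toLI he (ψ i y)) = y
      rw [← h3]
      congr 1
      funext i
      apply Subtype.ext
      rw [toLI_val]
      have h4 := hψ i ⟨y, hy⟩
      rw [h3]
      rw [h4]
      exact ((sec ⟨y, hy⟩).1 i).2
    show (Ψ y).1 - y.1 = 0
    rw [h1, sub_self]
  -- the element `1 - e`
  let y0 : lI (1 - e) := ⟨1 - e, he.one_sub⟩
  have h5 : Ψ y0 = y0 := by
    have h6 := LinearMap.congr_fun hΨ y0
    apply Subtype.ext
    exact sub_eq_zero.1 h6
  let ev : lI (1 - e) →ₗ[A] S :=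
    (LinearMap.toSpanSingleton A S s0) ∘ₗ (lI (1 - e)).subtype
  have h7 : ev (Ψ y0) = 0 := by
    show ev (cov e x (fun i => toLI he (ψ i y0))) = 0
    rw [cov_apply, map_sum]
    refine Finset.sum_eq_zero fun i _ => ?_
    rw [map_smul, ← hx i, map_smul, hS, smul_zero]
  rw [h5] at h7
  have h8 : ev y0 = s0 := by
    show (1 - e) • s0 = s0
    rw [sub_smul, one_smul, hS, sub_zero]
  exact hs0 (h8.symm.trans h7)

end P195D
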