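import Mathlib
import Vale.Agent.P195D.Gnc
import Vale.Agent.P195.Defs

/-!
# P195: the Auslander-Reiten conjecture fails as soon as one simple module has no extensions into `A`
-/

namespace P195D

open CategoryTheory Abelian

universe u v

variable {A : Type u} [Ring A] {e : A}

section algebra

variable {k : Type v} [Field k] [Algebra k A]

/-- the corner is an algebra -/
instance cornerAlgebra (he : IsIdempotentElem e) : Algebra k he.Corner where
  algebraMap :=
    { toFun := fun c => ⟨algebraMap k A c * e, (Subsemigroup.mem_corner_iff he).2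
        ⟨by rw [← mul_assoc, ← Algebra.commutes c e, mul_assoc, he], by rw [mul_assoc, he]⟩⟩
      map_one' := Subtype.ext (by
        show algebraMap k A 1 * e = e
        rw [map_one, one_mul])
      map_mul' := fun c d => Subtype.ext (by
        show algebraMap k A (c * d) * e = algebraMap k A c * e * (algebraMap k A d * e)
        rw [map_mul, mul_assoc _ e, ← mul_assoc e, ← Algebra.commutes d e, mul_assoc _ e e, he,
          mul_assoc])
      map_zero' := Subtype.ext (by
        show algebraMap k A 0 * e = 0
        rw [map_zero, zero_mul])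
      map_add' := fun c d => Subtype.ext (by
        show algebraMap k A (c + d) * e = algebraMap k A c * e + algebraMap k A d * e
        rw [map_add, add_mul]) }
  smul := fun c r => ⟨c • r.1, (Subsemigroup.mem_corner_iff he).2
    ⟨by rw [mul_smul_comm, corner_left he r], by rw [smul_mul_assoc, corner_right he r]⟩⟩
  commutes' := fun c r => Subtype.ext (by
    show algebraMap k A c * e * r.1 = r.1 * (algebraMap k A c * e)
    rw [mul_assoc, corner_left he r, ← mul_assoc, ← Algebra.commutes c r.1, mul_assoc,
      corner_right he r])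
  smul_def' := fun c r => Subtype.ext (by
    show c • r.1 = algebraMap k A c * e * r.1
    rw [mul_assoc, corner_left he r, Algebra.smul_def])

theorem finite_corner [Module.Finite k A] (he : IsIdempotentElem e) :
    Module.Finite k he.Corner := by
  let f : he.Corner →ₗ[k] A :=
    { toFun := fun r => r.1
      map_add' := fun _ _ => rfl
      map_smul' := fun _ _ => rfl }
  exact Module.Finite.of_injective f (fun a b h => Subtype.ext h)

end algebra

/-- annihilators of nonzero elements of modules killed by `e` when `(1-e)A(1-e)` is a field `k` -/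
theorem smul_eq_zero_iff {k : Type v} [Field k] [Algebra k A]
    (hloc : ∀ a : A, ∃ c : k, (1 - e) * a * (1 - e) = c • (1 - e))
    {Z : Type u} [AddCommGroup Z] [Module A Z] (hZ : ∀ z : Z, e • z = 0) {z : Z} (hz : z ≠ 0)
    (a : A) : a • z = 0 ↔ (1 - e) * a * (1 - e) = 0 := by
  have h1 : ∀ y : Z, (1 - e) • y = y := fun y => by
    rw [sub_smul, one_smul, hZ, sub_zero]
  have h2 : ∀ b : A, ((1 - e) * b * (1 - e)) • z = b • z := fun b => by
    rw [mul_smul, mul_smul, h1 z, h1]
  constructor
  · intro h
    obtain ⟨c, hc⟩ := hloc a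
    rw [hc]
    by_cases hc0 : c = 0
    · rw [hc0, zero_smul]
    · exfalso
      apply hz
      have h3 : (c • (1 - e)) • z = 0 := by rw [← hc, h2, h]
      have h4 : (c • (1 - e)) • z = algebraMap k A c • z := by
        rw [Algebra.smul_def, mul_smul, h1]
      rw [h4] at h3
      have h5 : (algebraMap k A c⁻¹ * algebraMap k A c) • z = 0 := by
        rw [mul_smul, h3, smul_zero]
      rwa [← map_mul, inv_mul_cancel₀ hc0, map_one, one_smul] at h5
  · intro h
    rw [← h2 a, h, zero_smul]

theorem perp_of_simple {k : Type v} [Field k] [Algebra k A] [IsNoetherianRing A]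
    (hloc : ∀ a : A, ∃ c : k, (1 - e) * a * (1 - e) = c • (1 - e))
    (S : Type u) [AddCommGroup S] [Module A S] (hS : ∀ s : S, e • s = 0) (s0 : S) (hs0 : s0 ≠ 0)
    (hgen : ∀ s : S, ∃ a : A, a • s0 = s) (hE : ∀ i, EV A S A i) : Perp e := by
  intro Z _ _ hfin hZ
  -- cyclic modules
  have hcyc : ∀ (V : Type u) [AddCommGroup V] [Module A V], (∀ v : V, e • v = 0) → ∀ v : V,
      v ≠ 0 → ∀ i, EV A (LinearMap.range (LinearMap.toSpanSingleton A V v)) A i := by
    intro V _ _ hV v hv i
    have hker : LinearMap.ker (LinearMap.toSpanSingleton A V v) =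
        LinearMap.ker (LinearMap.toSpanSingleton A S s0) := by
      ext a
      rw [LinearMap.mem_ker, LinearMap.mem_ker, LinearMap.toSpanSingleton_apply,
        LinearMap.toSpanSingleton_apply, smul_eq_zero_iff hloc hV hv a,
        smul_eq_zero_iff hloc hS hs0 a]
    have e1 := (LinearMap.toSpanSingleton A V v).quotKerEquivRange
    have e2 := (LinearMap.toSpanSingleton A S s0).quotKerEquivOfSurjective (fun s => by
      obtain ⟨a, ha⟩ := hgen s
      exact ⟨a, ha⟩)
    exact (hE i).congr_left (e1.symm.trans ((Submodule.quotEquivOfEq _ _ hker).trans e2))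
  -- maximal submodule with vanishing
  have hnoeth : IsNoetherian A Z := inferInstance
  obtain ⟨N, hN, hmax⟩ := (set_has_maximal_iff_noetherian.2 hnoeth)
    {N : Submodule A Z | ∀ i, EV A N A i} ⟨⊥, fun i => by
      have : Module.Projective A (⊥ : Submodule A Z) := inferInstance
      cases i with
      | zero =>
        rw [ev_zero_iff]
        intro f
        ext x
        have hx : x = 0 := Subsingleton.elim _ _
        rw [hx, map_zero, map_zero]
      | succ i => exact EV.of_projective i⟩
  have htop : N = ⊤ := by
    by_contra hne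
    obtain ⟨z, hz⟩ : ∃ z, z ∉ N := by
      by_contra hcon
      push Not at hcon
      exact hne (eq_top_iff.2 fun z _ => hcon z)
    have hz' : (Submodule.Quotient.mk z : Z ⧸ N) ≠ 0 := by
      rw [Ne, Submodule.Quotient.mk_eq_zero]
      exact hz
    have hQ : ∀ w : Z ⧸ N, e • w = 0 := by
      intro w
      obtain ⟨y, rfl⟩ := Submodule.Quotient.mk_surjective _ w
      rw [← Submodule.Quotient.mk_smul, hZ, Submodule.Quotient.mk_zero]
    let R := LinearMap.range (LinearMap.toSpanSingleton A (Z ⧸ N) (Submodule.Quotient.mk z))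
    let N' : Submodule A Z := R.comap N.mkQ
    have hNN' : N ≤ N' := by
      intro y hy
      show N.mkQ y ∈ R
      have : N.mkQ y = 0 := by
        rw [Submodule.mkQ_apply, Submodule.Quotient.mk_eq_zero]
        exact hy
      rw [this]
      exact R.zero_mem
    have hzN' : z ∈ N' := ⟨1, by
      show (1 : A) • Submodule.Quotient.mk z = N.mkQ z
      rw [one_smul]
      rfl⟩
    have hlt : N < N' := lt_of_le_of_ne hNN' (fun h => hz (by rw [h]; exact hzN'))
    refine hmax N' (fun i => ?_) hlt
    let g : N' →ₗ[A] R := (N.mkQ ∘ₗ N'.subtype).codRestrict R (fun x => x.2)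
    have hg : Function.Surjective g := by
      rintro ⟨w, hw⟩
      obtain ⟨y, rfl⟩ := N.mkQ_surjective w
      exact ⟨⟨y, hw⟩, rfl⟩
    have hex : Function.Exact (Submodule.inclusion hNN') g := by
      intro x
      constructor
      · intro hx
        have h1 : N.mkQ x.1 = 0 := congrArg Subtype.val hx
        rw [Submodule.mkQ_apply, Submodule.Quotient.mk_eq_zero] at h1
        exact ⟨⟨x.1, h1⟩, rfl⟩
      · rintro ⟨y, rfl⟩
        apply Subtype.ext
        show N.mkQ y.1 = 0
        rw [Submodule.mkQ_apply, Submodule.Quotient.mk_eq_zero]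
        exact y.2
    exact EV.mid (Submodule.inclusion_injective hNN') hg hex (hN i)
      (hcyc _ hQ _ hz' i)
  intro i
  have h2 := hN i
  rw [htop] at h2
  exact h2.congr_left Submodule.topEquiv.symm

/-- the Auslander-Reiten conjecture fails for `eAe` -/
theorem ar_counterexample {k : Type v} [Field k] [Algebra k A] [Module.Finite k A]
    (he : IsIdempotentElem e)
    (hloc : ∀ a : A, ∃ c : k, (1 - e) * a * (1 - e) = c • (1 - e))
    (S : Type u) [AddCommGroup S] [Module A S] (hS : ∀ s : S, e • s = 0) (s0 : S) (hs0 : s0 ≠ 0)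
    (hgen : ∀ s : S, ∃ a : A, a • s0 = s) (hE : ∀ i, EV A S A i) :
    ∃ (R : Type u) (_ : Ring R) (_ : Algebra k R) (M : ModuleCat.{u} R),
      Module.Finite k R ∧ Module.Finite R M ∧
      (∀ i, 1 ≤ i → Vale.Agent.P195.ExtVanish M i) ∧ ¬ Module.Projective R M := by
  have hA : IsNoetherianRing A := isNoetherian_of_tower k inferInstance
  have hP : Perp e := perp_of_simple hloc S hS s0 hs0 hgen hE
  refine ⟨he.Corner, inferInstance, inferInstance, ModuleCat.of he.Corner (cM e),
    finite_corner he, finite_cM he, ?_, not_projective_cM he hP S hS s0 hs0⟩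
  intro i hi
  obtain ⟨j, rfl⟩ : ∃ j, i = j + 1 := ⟨i - 1, by lia⟩
  exact ar_vanish he hP j

end P195D
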