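import Mathlib

/-!
# P195: the algebra of a finite family of objects of a linear category and its modules
-/

namespace P195D

open CategoryTheory

universe v u

variable {C : Type u} [Category.{v} C] [Preadditive C] {ι : Type}

/-- matrices of morphisms between the objects `T i` -/
def CAlg (T : ι → C) : Type v := ∀ i j, T i ⟶ T j

/-- the module `i ↦ Hom (T i, E)` -/
def CMod (T : ι → C) (E : C) : Type v := ∀ i, T i ⟶ E

variable (T : ι → C)

instance : AddCommGroup (CAlg T) := inferInstanceAs (AddCommGroup (∀ i j, T i ⟶ T j))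

instance (E : C) : AddCommGroup (CMod T E) := inferInstanceAs (AddCommGroup (∀ i, T i ⟶ E))

@[ext] theorem CAlg.ext {a b : CAlg T} (h : ∀ i j, a i j = b i j) : a = b :=
  funext fun i => funext fun j => h i j

@[ext] theorem CMod.ext {E : C} {a b : CMod T E} (h : ∀ i, a i = b i) : a = b :=
  funext fun i => h i

open Classical in
/-- the identity matrix -/
noncomputable def unitC (i j : ι) : T i ⟶ T j := if h : i = j then eqToHom (congrArg T h) else 0

theorem unitC_self (i : ι) : unitC T i i = 𝟙 (T i) := by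
  unfold unitC
  rw [dif_pos rfl]
  rfl

theorem unitC_ne {i j : ι} (h : i ≠ j) : unitC T i j = 0 := by
  unfold unitC
  rw [dif_neg h]

variable [Fintype ι]

theorem sum_unitC_comp {E : C} (i : ι) (x : ∀ j, T j ⟶ E) :
    ∑ j, unitC T i j ≫ x j = x i := by
  rw [Finset.sum_eq_single i, unitC_self, Category.id_comp]
  · intro j _ hj
    rw [unitC_ne T (Ne.symm hj), Limits.zero_comp]
  · intro h
    exact absurd (Finset.mem_univ i) h

theorem sum_comp_unitC {E : C} (l : ι) (x : ∀ j, E ⟶ T j) :
    ∑ j, x j ≫ unitC T j l = x l := by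
  rw [Finset.sum_eq_single l, unitC_self, Category.comp_id]
  · intro j _ hj
    rw [unitC_ne T hj, Limits.comp_zero]
  · intro h
    exact absurd (Finset.mem_univ l) h

noncomputable instance : Ring (CAlg T) :=
  { (inferInstance : AddCommGroup (CAlg T)) with
    mul := fun a b i l => ∑ j, a i j ≫ b j l
    one := fun i j => unitC T i j
    left_distrib := fun a b c => by
      ext i l
      show ∑ j, a i j ≫ (b j l + c j l) = (∑ j, a i j ≫ b j l) + ∑ j, a i j ≫ c j l
      rw [← Finset.sum_add_distrib]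
      exact Finset.sum_congr rfl fun j _ => Preadditive.comp_add _ _ _ _ _ _
    right_distrib := fun a b c => by
      ext i l
      show ∑ j, (a i j + b i j) ≫ c j l = (∑ j, a i j ≫ c j l) + ∑ j, b i j ≫ c j l
      rw [← Finset.sum_add_distrib]
      exact Finset.sum_congr rfl fun j _ => Preadditive.add_comp _ _ _ _ _ _
    zero_mul := fun a => by
      ext i l
      show ∑ j, (0 : T i ⟶ T j) ≫ a j l = 0
      exact Finset.sum_eq_zero fun j _ => Limits.zero_comp
    mul_zero := fun a => by
      ext i l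
      show ∑ j, a i j ≫ (0 : T j ⟶ T l) = 0
      exact Finset.sum_eq_zero fun j _ => Limits.comp_zero
    mul_assoc := fun a b c => by
      ext i l
      show ∑ j, (∑ m, a i m ≫ b m j) ≫ c j l = ∑ m, a i m ≫ (∑ j, b m j ≫ c j l)
      simp only [Preadditive.sum_comp, Preadditive.comp_sum, Category.assoc]
      rw [Finset.sum_comm]
    one_mul := fun a => by
      ext i l
      exact sum_unitC_comp T i (fun j => a j l)
    mul_one := fun a => by
      ext i l
      exact sum_comp_unitC T l (fun j => a i j) }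

theorem CAlg.mul_apply (a b : CAlg T) (i l : ι) : (a * b) i l = ∑ j, a i j ≫ b j l := rfl

theorem CAlg.one_apply (i j : ι) : (1 : CAlg T) i j = unitC T i j := rfl

theorem CAlg.add_apply (a b : CAlg T) (i l : ι) : (a + b) i l = a i l + b i l := rfl

theorem CAlg.sub_apply (a b : CAlg T) (i l : ι) : (a - b) i l = a i l - b i l := rfl

theorem CAlg.zero_apply (i l : ι) : (0 : CAlg T) i l = 0 := rfl

noncomputable instance (E : C) : Module (CAlg T) (CMod T E) where
  smul a x := fun i => ∑ j, a i j ≫ x j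
  one_smul x := by
    ext i
    exact sum_unitC_comp T i x
  mul_smul a b x := by
    ext i
    show ∑ j, (∑ m, a i m ≫ b m j) ≫ x j = ∑ m, a i m ≫ (∑ j, b m j ≫ x j)
    simp only [Preadditive.sum_comp, Preadditive.comp_sum, Category.assoc]
    rw [Finset.sum_comm]
  smul_zero a := by
    ext i
    show ∑ j, a i j ≫ (0 : T j ⟶ E) = 0
    exact Finset.sum_eq_zero fun j _ => Limits.comp_zero
  zero_smul x := by
    ext i
    show ∑ j, (0 : T i ⟶ T j) ≫ x j = 0
    exact Finset.sum_eq_zero fun j _ => Limits.zero_comp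
  smul_add a x y := by
    ext i
    show ∑ j, a i j ≫ (x j + y j) = (∑ j, a i j ≫ x j) + ∑ j, a i j ≫ y j
    rw [← Finset.sum_add_distrib]
    exact Finset.sum_congr rfl fun j _ => Preadditive.comp_add _ _ _ _ _ _
  add_smul a b x := by
    ext i
    show ∑ j, (a i j + b i j) ≫ x j = (∑ j, a i j ≫ x j) + ∑ j, b i j ≫ x j
    rw [← Finset.sum_add_distrib]
    exact Finset.sum_congr rfl fun j _ => Preadditive.add_comp _ _ _ _ _ _

theorem CMod.smul_apply {E : C} (a : CAlg T) (x : CMod T E) (i : ι) :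
    (a • x) i = ∑ j, a i j ≫ x j := rfl

theorem CMod.add_apply {E : C} (x y : CMod T E) (i : ι) : (x + y) i = x i + y i := rfl

theorem CMod.zero_apply {E : C} (i : ι) : (0 : CMod T E) i = 0 := rfl

theorem CMod.neg_apply {E : C} (x : CMod T E) (i : ι) : (-x) i = -(x i) := rfl

/-- functoriality -/
noncomputable def cmap {E F : C} (f : E ⟶ F) : CMod T E →ₗ[CAlg T] CMod T F where
  toFun x := fun i => x i ≫ f
  map_add' x y := by
    ext i
    exact Preadditive.add_comp _ _ _ _ _ _
  map_smul' a x := by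
    ext i
    show (∑ j, a i j ≫ x j) ≫ f = ∑ j, a i j ≫ x j ≫ f
    rw [Preadditive.sum_comp]
    exact Finset.sum_congr rfl fun j _ => Category.assoc _ _ _

theorem cmap_apply {E F : C} (f : E ⟶ F) (x : CMod T E) (i : ι) : cmap T f x i = x i ≫ f := rfl

/-- column `l` of a matrix -/
noncomputable def ccol (l : ι) : CAlg T →ₗ[CAlg T] CMod T (T l) where
  toFun a := fun i => a i l
  map_add' _ _ := rfl
  map_smul' a b := by
    ext i
    rfl

theorem ccol_apply (l : ι) (a : CAlg T) (i : ι) : ccol T l a i = a i l := rfl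

/-- the matrix with given columns -/
noncomputable def cmat {E : C} (f : ∀ l, E ⟶ T l) : CMod T E →ₗ[CAlg T] CAlg T where
  toFun x := fun i l => x i ≫ f l
  map_add' x y := by
    ext i l
    exact Preadditive.add_comp _ _ _ _ _ _
  map_smul' a x := by
    ext i l
    show (∑ j, a i j ≫ x j) ≫ f l = ∑ j, a i j ≫ x j ≫ f l
    rw [Preadditive.sum_comp]
    exact Finset.sum_congr rfl fun j _ => Category.assoc _ _ _

theorem cmat_apply {E : C} (f : ∀ l, E ⟶ T l) (x : CMod T E) (i l : ι) :
    cmat T f x i l = x i ≫ f l := rfl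

/-- `E` is a direct summand of a finite sum of objects `T i` -/
def InAdd (E : C) : Prop :=
  ∃ (J : Type) (_ : Fintype J) (o : J → ι) (p : ∀ a, E ⟶ T (o a)) (q : ∀ a, T (o a) ⟶ E),
    ∑ a, p a ≫ q a = 𝟙 E

omit [Fintype ι] in
theorem inAdd_self (l : ι) : InAdd T (T l) := by
  refine ⟨Unit, inferInstance, fun _ => l, fun _ => 𝟙 _, fun _ => 𝟙 _, ?_⟩
  rw [Finset.sum_const, Finset.card_univ, Fintype.card_unit, one_smul, Category.comp_id]

omit [Fintype ι] in
theorem inAdd_zero {E : C} (h : Limits.IsZero E) : InAdd T E := by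
  refine ⟨Empty, inferInstance, fun a => a.elim, fun a => a.elim, fun a => a.elim, ?_⟩
  exact h.eq_of_src _ _

theorem projective_of_inAdd {E : C} (hE : InAdd T E) : Module.Projective (CAlg T) (CMod T E) := by
  obtain ⟨J, hJ, o, p, q, hpq⟩ := hE
  let i : CMod T E →ₗ[CAlg T] (J → CAlg T) :=
    LinearMap.pi fun a => cmat T (fun l => p a ≫ unitC T (o a) l)
  let r : (J → CAlg T) →ₗ[CAlg T] CMod T E :=
    ∑ a, (cmap T (q a)) ∘ₗ (ccol T (o a)) ∘ₗ (LinearMap.proj a)
  refine Module.Projective.of_split i r ?_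
  ext x : 1
  show r (i x) = x
  ext j
  have h1 : r (i x) j = ∑ a, (x j ≫ p a ≫ unitC T (o a) (o a)) ≫ q a := by
    have h2 : r (i x) = ∑ a, cmap T (q a) (ccol T (o a) (i x a)) := by
      simp only [r, LinearMap.sum_apply]
      rfl
    rw [h2]
    have h3 : ∀ (s : Finset J) (g : J → CMod T E), (∑ a ∈ s, g a) j = ∑ a ∈ s, g a j := by
      intro s g
      exact Finset.sum_apply j s g
    rw [h3]
    rfl
  rw [h1]
  simp only [unitC_self, Category.comp_id, Category.assoc]
  rw [← Preadditive.comp_sum, hpq, Category.comp_id]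

/-- every map from `CMod T E` to the algebra is given by morphisms `E → T l` -/
theorem exists_cmat {E : C} (hE : InAdd T E) (φ : CMod T E →ₗ[CAlg T] CAlg T) :
    ∃ f : ∀ l, E ⟶ T l, φ = cmat T f := by
  obtain ⟨J, hJ, o, p, q, hpq⟩ := hE
  have hsumM : ∀ (s : Finset J) (g : J → CMod T E) (i : ι),
      (∑ a ∈ s, g a) i = ∑ a ∈ s, g a i := fun s g i => Finset.sum_apply i s g
  have hsumA : ∀ (s : Finset J) (g : J → CAlg T) (i l : ι),
      (∑ a ∈ s, g a) i l = ∑ a ∈ s, g a i l := by
    intro s g i l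
    have h1 : (∑ a ∈ s, g a) i = ∑ a ∈ s, g a i := Finset.sum_apply i s g
    rw [h1]
    exact Finset.sum_apply l s _
  let Q : ∀ a, CMod T E := fun a i => unitC T i (o a) ≫ q a
  refine ⟨fun l => ∑ a, p a ≫ φ (Q a) (o a) l, ?_⟩
  ext x : 1
  let M : ∀ a, CAlg T := fun a i j => x i ≫ p a ≫ unitC T (o a) j
  have hx : x = ∑ a, M a • Q a := by
    ext i
    rw [hsumM]
    have h1 : ∀ a, (M a • Q a) i = x i ≫ (p a ≫ q a) := by
      intro a
      show ∑ j, (x i ≫ p a ≫ unitC T (o a) j) ≫ unitC T j (o a) ≫ q a = _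
      have h2 : ∀ j, (x i ≫ p a ≫ unitC T (o a) j) ≫ unitC T j (o a) ≫ q a =
          (x i ≫ p a) ≫ (unitC T (o a) j ≫ (unitC T j (o a) ≫ q a)) := by
        intro j
        simp only [Category.assoc]
      rw [Finset.sum_congr rfl fun j _ => h2 j, ← Preadditive.comp_sum, sum_unitC_comp,
        unitC_self, Category.id_comp, Category.assoc]
    rw [Finset.sum_congr rfl fun a _ => h1 a, ← Preadditive.comp_sum, hpq, Category.comp_id]
  have h3 : φ x = ∑ a, M a * φ (Q a) := by
    conv_lhs => rw [hx]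
    rw [map_sum]
    exact Finset.sum_congr rfl fun a _ => φ.map_smul _ _
  rw [h3]
  ext i l
  rw [hsumA]
  show _ = x i ≫ ∑ a, p a ≫ φ (Q a) (o a) l
  rw [Preadditive.comp_sum]
  refine Finset.sum_congr rfl fun a _ => ?_
  show ∑ j, (x i ≫ p a ≫ unitC T (o a) j) ≫ φ (Q a) j l = _
  have h2 : ∀ j, (x i ≫ p a ≫ unitC T (o a) j) ≫ φ (Q a) j l =
      (x i ≫ p a) ≫ (unitC T (o a) j ≫ φ (Q a) j l) := by
    intro j
    simp only [Category.assoc]
  rw [Finset.sum_congr rfl fun j _ => h2 j, ← Preadditive.comp_sum,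
    sum_unitC_comp T (o a) (fun j => φ (Q a) j l), Category.assoc]

section linear

variable {k : Type} [Field k] [Linear k C]

noncomputable instance : Module k (CAlg T) := inferInstanceAs (Module k (∀ i j, T i ⟶ T j))

theorem CAlg.smul_apply (c : k) (a : CAlg T) (i j : ι) : (c • a) i j = c • a i j := rfl

noncomputable instance : Algebra k (CAlg T) :=
  Algebra.ofModule
    (fun c a b => by
      ext i l
      show ∑ j, (c • a i j) ≫ b j l = c • ∑ j, a i j ≫ b j l
      rw [Finset.smul_sum]
      exact Finset.sum_congr rfl fun j _ => Linear.smul_comp _ _ _ _ _ _)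
    (fun c a b => by
      ext i l
      show ∑ j, a i j ≫ (c • b j l) = c • ∑ j, a i j ≫ b j l
      rw [Finset.smul_sum]
      exact Finset.sum_congr rfl fun j _ => Linear.comp_smul _ _ _ _ _ _)

theorem finite_CAlg [∀ i j, Module.Finite k (T i ⟶ T j)] : Module.Finite k (CAlg T) := by
  have h : Module.Finite k (∀ i j, T i ⟶ T j) := inferInstance
  exact h

end linear

end P195D
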