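import Mathlib
import Vale.Agent.P195D.ExtTools

/-!
# P195: the convergence lemma

Exact sequences `0 → T (n+1) → M n → T n → 0` (`n ≥ 0`) where `Ext^i(M n, W) = 0` for `i ≠ d` and
the sequence `0 → Ext^d(M 0, W) → Ext^d(M 1, W) → Ext^d(M 2, W) → ...` induced by the composites
`M (n+1) → T (n+1) → M n` is exact.  Then `Ext^i(T 0, W) = 0` for all `i`.
-/

namespace P195D

open CategoryTheory Abelian

universe u

variable {A : Type u} [Ring A]

/-- precomposition on Ext groups -/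
noncomputable def pc {X Y : Type u} (W : Type u) [AddCommGroup X] [Module A X]
    [AddCommGroup Y] [Module A Y] [AddCommGroup W] [Module A W] (f : X →ₗ[A] Y) (i : ℕ)
    (x : Ext (ModuleCat.of A Y) (ModuleCat.of A W) i) :
    Ext (ModuleCat.of A X) (ModuleCat.of A W) i :=
  (Ext.mk₀ (ModuleCat.ofHom f)).comp x (zero_add i)

variable {X Y Z W : Type u} [AddCommGroup X] [Module A X] [AddCommGroup Y] [Module A Y]
  [AddCommGroup Z] [Module A Z] [AddCommGroup W] [Module A W]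

theorem pc_comp (f : X →ₗ[A] Y) (g : Y →ₗ[A] Z) (i : ℕ)
    (x : Ext (ModuleCat.of A Z) (ModuleCat.of A W) i) :
    pc W (g ∘ₗ f) i x = pc W f i (pc W g i x) := by
  show (Ext.mk₀ (ModuleCat.ofHom (g ∘ₗ f))).comp x (zero_add i) =
    (Ext.mk₀ (ModuleCat.ofHom f)).comp ((Ext.mk₀ (ModuleCat.ofHom g)).comp x
      (zero_add i)) (zero_add i)
  rw [Ext.mk₀_comp_mk₀_assoc]
  rfl

theorem pc_zero (f : X →ₗ[A] Y) (i : ℕ) :
    pc W f i (0 : Ext (ModuleCat.of A Y) (ModuleCat.of A W) i) = 0 := by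
  simp [pc]

theorem pc_add (f : X →ₗ[A] Y) (i : ℕ) (x y : Ext (ModuleCat.of A Y) (ModuleCat.of A W) i) :
    pc W f i (x + y) = pc W f i x + pc W f i y := by
  simp [pc]

theorem pc_sub (f : X →ₗ[A] Y) (i : ℕ) (x y : Ext (ModuleCat.of A Y) (ModuleCat.of A W) i) :
    pc W f i (x - y) = pc W f i x - pc W f i y := by
  rw [eq_sub_iff_add_eq, ← pc_add, sub_add_cancel]

section seq

variable {f : X →ₗ[A] Y} {g : Y →ₗ[A] Z} (hf : Function.Injective f)
  (hg : Function.Surjective g) (h : Function.Exact f g)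

include hf hg h

/-- injectivity of `g^*` in degree `n + 1` when `f^*` is surjective in degree `n` -/
theorem pc_inj_of_surj {n : ℕ}
    (hs : ∀ x : Ext (ModuleCat.of A X) (ModuleCat.of A W) n, ∃ y, pc W f n y = x)
    (z : Ext (ModuleCat.of A Z) (ModuleCat.of A W) (n + 1)) (hz : pc W g (n + 1) z = 0) :
    z = 0 := by
  obtain ⟨x, hx⟩ := Ext.contravariant_sequence_exact₃ (ses hf hg h) (ModuleCat.of A W) z hz
    (by lia : 1 + n = n + 1)
  obtain ⟨y, rfl⟩ := hs x
  rw [← hx]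
  show _ = _
  unfold pc
  have h0 := ShortComplex.ShortExact.extClass_comp (ses hf hg h)
  rw [← Ext.comp_assoc_of_second_deg_zero]
  rw [h0, Ext.zero_comp]

theorem pc_inj_zero (z : Ext (ModuleCat.of A Z) (ModuleCat.of A W) 0) (hz : pc W g 0 z = 0) :
    z = 0 := by
  have : Epi (ModuleCat.ofHom g) := (ModuleCat.epi_iff_surjective _).2 hg
  have h1 := Ext.precomp_mk₀_injective_of_epi (ModuleCat.of A W) (ModuleCat.ofHom g)
  apply h1
  rw [map_zero]
  exact hz

theorem pc_exact₂ {n : ℕ} (y : Ext (ModuleCat.of A Y) (ModuleCat.of A W) n)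
    (hy : pc W f n y = 0) : ∃ z, pc W g n z = y :=
  Ext.contravariant_sequence_exact₂ (ses hf hg h) (ModuleCat.of A W) y hy

theorem pc_comp_zero {n : ℕ} (z : Ext (ModuleCat.of A Z) (ModuleCat.of A W) n) :
    pc W f n (pc W g n z) = 0 := by
  rw [← pc_comp]
  have h1 : g ∘ₗ f = 0 := by
    ext x
    exact h.apply_apply_eq_zero x
  rw [h1]
  show (Ext.mk₀ (ModuleCat.ofHom (0 : X →ₗ[A] Z))).comp z (zero_add n) = 0
  have h2 : ModuleCat.ofHom (0 : X →ₗ[A] Z) = 0 := rfl
  rw [h2, Ext.mk₀_zero, Ext.zero_comp]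

/-- if `f^*` is surjective in degree `n` and `Ext^(n+1)(Y, W) = 0` then `Ext^(n+1)(Z, W) = 0` -/
theorem EV.of_surj {n : ℕ}
    (hs : ∀ x : Ext (ModuleCat.of A X) (ModuleCat.of A W) n, ∃ y, pc W f n y = x)
    (h2 : EV A Y W (n + 1)) : EV A Z W (n + 1) := by
  rw [ev_iff] at h2 ⊢
  intro z
  exact pc_inj_of_surj hf hg h hs z (h2 _)

end seq

/-- the convergence lemma -/
theorem chain_vanish (W : Type u) [AddCommGroup W] [Module A W]
    (T M : ℕ → Type u) [∀ n, AddCommGroup (T n)] [∀ n, Module A (T n)]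
    [∀ n, AddCommGroup (M n)] [∀ n, Module A (M n)]
    (ι : ∀ n, T (n + 1) →ₗ[A] M n) (π : ∀ n, M n →ₗ[A] T n)
    (hι : ∀ n, Function.Injective (ι n)) (hπ : ∀ n, Function.Surjective (π n))
    (hex : ∀ n, Function.Exact (ι n) (π n)) (d : ℕ)
    (hM : ∀ n i, i ≠ d → EV A (M n) W i)
    (h0 : ∀ x : Ext (ModuleCat.of A (M 0)) (ModuleCat.of A W) d,
      pc W (ι 0 ∘ₗ π 1) d x = 0 → x = 0)
    (h1 : ∀ n, ∀ x : Ext (ModuleCat.of A (M (n + 1))) (ModuleCat.of A W) d,
      pc W (ι (n + 1) ∘ₗ π (n + 2)) d x = 0 → ∃ y, pc W (ι n ∘ₗ π (n + 1)) d y = x) (i : ℕ) :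
    EV A (T 0) W i := by
  -- degrees below `d`
  have hlow : ∀ i, i < d → ∀ n, EV A (T n) W i := by
    intro i
    induction i with
    | zero =>
      intro hi n
      rw [ev_iff]
      intro z
      exact pc_inj_zero (hι n) (hπ n) (hex n) z (ev_iff.1 (hM n 0 (by lia)) _)
    | succ i ih =>
      intro hi n
      exact EV.right (hι n) (hπ n) (hex n) (ih (by lia) (n + 1)) (hM n (i + 1) (by lia))
  -- `π^*` is injective in degree `d`
  have hinj : ∀ n, ∀ z : Ext (ModuleCat.of A (T n)) (ModuleCat.of A W) d,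
      pc W (π n) d z = 0 → z = 0 := by
    intro n z hz
    cases d with
    | zero => exact pc_inj_zero (hι n) (hπ n) (hex n) z hz
    | succ d =>
      refine pc_inj_of_surj (hι n) (hπ n) (hex n) (fun x => ⟨0, ?_⟩) z hz
      rw [pc_zero]
      exact (ev_iff.1 (hlow d (by lia) (n + 1)) x).symm
  -- degree `d`, `n = 0`
  have hd0 : EV A (T 0) W d := by
    rw [ev_iff]
    intro z
    apply hinj 0
    apply h0
    rw [pc_comp, pc_comp_zero (hι 0) (hπ 0) (hex 0), pc_zero]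
  -- `ι^*` is surjective in degree `d`
  have hsurj : ∀ n, ∀ x : Ext (ModuleCat.of A (T (n + 1))) (ModuleCat.of A W) d,
      ∃ y, pc W (ι n) d y = x := by
    intro n x
    have h2 : pc W (ι (n + 1) ∘ₗ π (n + 2)) d (pc W (π (n + 1)) d x) = 0 := by
      rw [pc_comp, pc_comp_zero (hι (n + 1)) (hπ (n + 1)) (hex (n + 1)), pc_zero]
    obtain ⟨y, hy⟩ := h1 n _ h2
    refine ⟨y, ?_⟩
    rw [pc_comp] at hy
    have h3 := hinj (n + 1) (pc W (ι n) d y - x) (by rw [pc_sub, hy, sub_self])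
    exact sub_eq_zero.1 h3
  -- degrees above `d`
  have hhigh : ∀ j n, EV A (T n) W (d + 1 + j) := by
    intro j
    induction j with
    | zero =>
      intro n
      exact EV.of_surj (hι n) (hπ n) (hex n) (hsurj n) (hM n (d + 1) (by lia))
    | succ j ih =>
      intro n
      exact EV.right (hι n) (hπ n) (hex n) (ih (n + 1)) (hM n (d + 1 + (j + 1)) (by lia))
  rcases lt_trichotomy i d with h | h | h
  · exact hlow i h 0
  · rw [h]
    exact hd0
  · obtain ⟨j, rfl⟩ : ∃ j, i = d + 1 + j := ⟨i - (d + 1), by lia⟩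
    exact hhigh j 0

end P195D
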