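import Mathlib

/-!
# P195: exactness of total complexes of double complexes of abelian groups with four rows
-/

namespace P195D

universe v

section single

variable {G : ℕ → ℕ → Type v} [∀ j i, AddCommGroup (G j i)]

/-- family supported at one place -/
def sg (j i : ℕ) (x : G j i) : ∀ j i, G j i := Pi.single j (Pi.single i x)

theorem sg_same (j i : ℕ) (x : G j i) : sg j i x j i = x := by
  unfold sg
  rw [Pi.single_eq_same, Pi.single_eq_same]

theorem sg_ne {j i : ℕ} (x : G j i) {j' i' : ℕ} (h : ¬ (j' = j ∧ i' = i)) :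
    sg j i x j' i' = 0 := by
  unfold sg
  by_cases hj : j' = j
  · subst hj
    rw [Pi.single_eq_same]
    exact Pi.single_eq_of_ne (fun hi => h ⟨rfl, hi⟩) _
  · rw [Pi.single_eq_of_ne hj]
    rfl

end single

section chain

variable {G : ℕ → ℕ → Type v} [∀ j i, AddCommGroup (G j i)]
  (d : ∀ j i, G j (i + 1) →+ G j i) (c : ∀ j i, G (j + 1) i →+ G j i)

/-- total differential -/
def dtot (x : ∀ j i, G j i) : ∀ j i, G j i := fun j i => d j i (x j (i + 1)) + c j i (x (j + 1) i)

theorem dtot_add (x y : ∀ j i, G j i) : dtot d c (x + y) = dtot d c x + dtot d c y := by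
  funext j i
  show d j i (x j (i + 1) + y j (i + 1)) + c j i (x (j + 1) i + y (j + 1) i) =
    (d j i (x j (i + 1)) + c j i (x (j + 1) i)) + (d j i (y j (i + 1)) + c j i (y (j + 1) i))
  rw [map_add, map_add]
  abel

theorem dtot_sub (x y : ∀ j i, G j i) : dtot d c (x - y) = dtot d c x - dtot d c y := by
  funext j i
  show d j i (x j (i + 1) - y j (i + 1)) + c j i (x (j + 1) i - y (j + 1) i) =
    (d j i (x j (i + 1)) + c j i (x (j + 1) i)) - (d j i (y j (i + 1)) + c j i (y (j + 1) i))
  rw [map_sub, map_sub]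
  abel

variable (dd : ∀ j i x, d j i (d j (i + 1) x) = 0) (cc : ∀ j i x, c j i (c (j + 1) i x) = 0)
  (dc : ∀ j i x, c j i (d (j + 1) i x) + d j i (c j (i + 1) x) = 0)

include dd cc dc in
theorem dtot_dtot (x : ∀ j i, G j i) : dtot d c (dtot d c x) = 0 := by
  funext j i
  show d j i (d j (i + 1) (x j (i + 1 + 1)) + c j (i + 1) (x (j + 1) (i + 1))) +
    c j i (d (j + 1) i (x (j + 1) (i + 1)) + c (j + 1) i (x (j + 1 + 1) i)) = 0
  rw [map_add, map_add, dd, cc, zero_add, add_zero, add_comm]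
  exact dc j i _

include dd cc dc in
/-- columns exact in positive degrees, rows exact on the cokernels -/
theorem dtot_exact
    (hcol : ∀ j i (x : G j (i + 1)), d j i x = 0 → ∃ y, d j (i + 1) y = x)
    (hrow : ∀ j (x : G (j + 1) 0) (z : G j 1), c j 0 x + d j 0 z = 0 →
      ∃ (y : G (j + 1 + 1) 0) (w : G (j + 1) 1), x = c (j + 1) 0 y + d (j + 1) 0 w)
    (N : ℕ) : ∀ (k m : ℕ), m + k = N + 2 → ∀ x : ∀ j i, G j i,
      (∀ j i, j + i ≠ N + 1 → x j i = 0) → dtot d c x = 0 → (∀ j i, i < m → x j i = 0) →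
      ∃ y : ∀ j i, G j i, (∀ j i, j + i ≠ N + 2 → y j i = 0) ∧ dtot d c y = x := by
  intro k
  induction k with
  | zero =>
    intro m hm x hs hx h0
    refine ⟨0, fun _ _ _ => rfl, ?_⟩
    have hx0 : x = 0 := by
      funext j i
      by_cases hji : j + i = N + 1
      · exact h0 j i (by lia)
      · exact hs j i hji
    rw [hx0]
    funext j i
    show d j i 0 + c j i 0 = 0
    rw [map_zero, map_zero, zero_add]
  | succ k ih =>
    intro m hm x hs hx h0
    obtain ⟨j, hj⟩ : ∃ j, j + m = N + 1 := ⟨N + 1 - m, by lia⟩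
    -- it is enough to kill the component `(j, m)`
    have key : ∀ y1 : ∀ j i, G j i, (∀ j i, j + i ≠ N + 2 → y1 j i = 0) →
        (∀ j' i', i' < m + 1 → dtot d c y1 j' i' = x j' i') →
        ∃ y : ∀ j i, G j i, (∀ j i, j + i ≠ N + 2 → y j i = 0) ∧ dtot d c y = x := by
      intro y1 hy1 hD
      obtain ⟨y2, hy2, hD2⟩ := ih (m + 1) (by lia) (x - dtot d c y1) (by
        intro j' i' h
        show x j' i' - (d j' i' (y1 j' (i' + 1)) + c j' i' (y1 (j' + 1) i')) = 0
        rw [hs j' i' h, hy1 j' (i' + 1) (by lia), hy1 (j' + 1) i' (by lia), map_zero, map_zero,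
          add_zero, sub_zero]) (by
        rw [dtot_sub, hx, dtot_dtot d c dd cc dc, sub_zero]) (by
        intro j' i' hi'
        show x j' i' - dtot d c y1 j' i' = 0
        rw [hD j' i' hi', sub_self])
      refine ⟨y1 + y2, fun j' i' h => ?_, ?_⟩
      · show y1 j' i' + y2 j' i' = 0
        rw [hy1 j' i' h, hy2 j' i' h, add_zero]
      · rw [dtot_add, hD2, add_sub_cancel]
    match m, hm, h0, hj, key with
    | 0, hm, h0, hj, key =>
      obtain rfl : j = N + 1 := by lia
      have h1 := congrFun (congrFun hx N) 0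
      have h2 : d N 0 (x N 1) + c N 0 (x (N + 1) 0) = 0 := h1
      rw [add_comm] at h2
      obtain ⟨y, w, hyw⟩ := hrow N _ _ h2
      refine key (sg (N + 1 + 1) 0 y + sg (N + 1) 1 w) ?_ ?_
      · intro j' i' h
        show sg (N + 1 + 1) 0 y j' i' + sg (N + 1) 1 w j' i' = 0
        rw [sg_ne y (by rintro ⟨rfl, rfl⟩; lia), sg_ne w (by rintro ⟨rfl, rfl⟩; lia), add_zero]
      · intro j' i' hi'
        obtain rfl : i' = 0 := by lia
        show d j' 0 (sg (N + 1 + 1) 0 y j' (0 + 1) + sg (N + 1) 1 w j' (0 + 1)) +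
          c j' 0 (sg (N + 1 + 1) 0 y (j' + 1) 0 + sg (N + 1) 1 w (j' + 1) 0) = x j' 0
        by_cases hj' : j' = N + 1
        · subst hj'
          rw [sg_ne y (by rintro ⟨h1, h2⟩; lia), sg_same, sg_same,
            sg_ne w (by rintro ⟨h1, h2⟩; lia), zero_add w, add_zero y, hyw]
          exact add_comm _ _
        · rw [sg_ne y (by rintro ⟨h1, h2⟩; lia), sg_ne w (by rintro ⟨h1, h2⟩; lia),
            sg_ne y (by rintro ⟨h1, h2⟩; lia), sg_ne w (by rintro ⟨h1, h2⟩; lia),
            add_zero, add_zero, map_zero, map_zero, add_zero, hs j' 0 (by lia)]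
    | m + 1, hm, h0, hj, key =>
      have h1 := congrFun (congrFun hx j) m
      have h2 : d j m (x j (m + 1)) + c j m (x (j + 1) m) = 0 := h1
      rw [h0 (j + 1) m (by lia), map_zero, add_zero] at h2
      obtain ⟨y, hy⟩ := hcol j m _ h2
      refine key (sg j (m + 1 + 1) y) ?_ ?_
      · intro j' i' h
        exact sg_ne y (by rintro ⟨rfl, rfl⟩; lia)
      · intro j' i' hi'
        show d j' i' (sg j (m + 1 + 1) y j' (i' + 1)) + c j' i' (sg j (m + 1 + 1) y (j' + 1) i') =
          x j' i'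
        rw [sg_ne y (j' := j' + 1) (by rintro ⟨h1, h2⟩; lia), map_zero, add_zero]
        by_cases hc : j' = j ∧ i' = m + 1
        · obtain ⟨rfl, rfl⟩ := hc
          rw [sg_same, hy]
        · rw [sg_ne y (by rintro ⟨h1, h2⟩; exact hc ⟨h1, by lia⟩), map_zero]
          by_cases hi2 : i' < m + 1
          · rw [h0 j' i' hi2]
          · rw [hs j' i' (by
              intro h3
              exact hc ⟨by lia, by lia⟩)]

end chain

section cochain

variable {K : ℕ → ℕ → Type v} [∀ j i, AddCommGroup (K j i)]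
  (d : ∀ j i, K j i →+ K j (i + 1)) (c : ∀ j i, K j i →+ K (j + 1) i)

/-- the part of the total codifferential coming from `d` -/
def dpart (f : ∀ j i, K j i) (j : ℕ) : ∀ i, K j i
  | 0 => 0
  | i + 1 => d j i (f j i)

/-- the part of the total codifferential coming from `c` -/
def cpart (f : ∀ j i, K j i) : ∀ j i, K j i
  | 0, _ => 0
  | j + 1, i => c j i (f j i)

/-- total codifferential -/
def ctot (f : ∀ j i, K j i) : ∀ j i, K j i := fun j i => dpart d f j i + cpart c f j i

theorem dpart_add (f g : ∀ j i, K j i) (j i : ℕ) :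
    dpart d (f + g) j i = dpart d f j i + dpart d g j i := by
  cases i with
  | zero => exact (add_zero _).symm
  | succ i => exact map_add _ _ _

theorem cpart_add (f g : ∀ j i, K j i) (j i : ℕ) :
    cpart c (f + g) j i = cpart c f j i + cpart c g j i := by
  cases j with
  | zero => exact (add_zero _).symm
  | succ i => exact map_add _ _ _

theorem ctot_add (f g : ∀ j i, K j i) : ctot d c (f + g) = ctot d c f + ctot d c g := by
  funext j i
  show dpart d (f + g) j i + cpart c (f + g) j i =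
    (dpart d f j i + cpart c f j i) + (dpart d g j i + cpart c g j i)
  rw [dpart_add, cpart_add]
  abel

theorem ctot_sub (f g : ∀ j i, K j i) : ctot d c (f - g) = ctot d c f - ctot d c g := by
  have h := ctot_add d c (f - g) g
  rw [sub_add_cancel] at h
  rw [h, add_sub_cancel_right]

variable (dd : ∀ j i x, d j (i + 1) (d j i x) = 0) (cc : ∀ j i x, c (j + 1) i (c j i x) = 0)
  (dc : ∀ j i x, c j (i + 1) (d j i x) + d (j + 1) i (c j i x) = 0)

include dd cc dc in
theorem ctot_ctot (f : ∀ j i, K j i) : ctot d c (ctot d c f) = 0 := by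
  funext j i
  show dpart d (ctot d c f) j i + cpart c (ctot d c f) j i = 0
  match j, i with
  | 0, 0 => exact add_zero _
  | 0, 1 =>
    show d 0 0 (0 + 0) + 0 = 0
    rw [add_zero, add_zero, map_zero]
  | 0, i + 1 + 1 =>
    show d 0 (i + 1) (d 0 i (f 0 i) + 0) + 0 = 0
    rw [add_zero, add_zero, dd]
  | 1, 0 =>
    show 0 + c 0 0 (0 + 0) = 0
    rw [add_zero (0 : K 0 0), map_zero]
    exact add_zero _
  | j + 1 + 1, 0 =>
    show 0 + c (j + 1) 0 (0 + c j 0 (f j 0)) = 0
    rw [zero_add, zero_add, cc]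
  | 1, 1 =>
    show d 1 0 (0 + c 0 0 (f 0 0)) + c 0 1 (d 0 0 (f 0 0) + 0) = 0
    rw [zero_add (c 0 0 (f 0 0)), add_zero (d 0 0 (f 0 0))]
    exact (add_comm _ _).trans (dc 0 0 _)
  | j + 1 + 1, 1 =>
    show d (j + 1 + 1) 0 (0 + c (j + 1) 0 (f (j + 1) 0)) +
      c (j + 1) 1 (d (j + 1) 0 (f (j + 1) 0) + c j 1 (f j 1)) = 0
    rw [zero_add (c (j + 1) 0 (f (j + 1) 0)), map_add, cc, add_zero]
    exact (add_comm _ _).trans (dc _ _ _)
  | 1, i + 1 + 1 =>
    show d 1 (i + 1) (d 1 i (f 1 i) + c 0 (i + 1) (f 0 (i + 1))) +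
      c 0 (i + 1 + 1) (d 0 (i + 1) (f 0 (i + 1)) + 0) = 0
    rw [add_zero (d 0 (i + 1) (f 0 (i + 1))), map_add, dd, zero_add (d 1 (i + 1) _)]
    exact (add_comm _ _).trans (dc _ _ _)
  | j + 1 + 1, i + 1 + 1 =>
    show d (j + 1 + 1) (i + 1) (d (j + 1 + 1) i (f (j + 1 + 1) i) +
        c (j + 1) (i + 1) (f (j + 1) (i + 1))) +
      c (j + 1) (i + 1 + 1) (d (j + 1) (i + 1) (f (j + 1) (i + 1)) +
        c j (i + 1 + 1) (f j (i + 1 + 1))) = 0
    rw [map_add, map_add, dd, cc, zero_add, add_zero]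
    exact (add_comm _ _).trans (dc _ _ _)

theorem ctot_supp {N : ℕ} {f : ∀ j i, K j i} (hf : ∀ j i, j + i ≠ N → f j i = 0) :
    ∀ j i, j + i ≠ N + 1 → ctot d c f j i = 0 := by
  intro j i h
  have h1 : dpart d f j i = 0 := by
    cases i with
    | zero => rfl
    | succ i =>
      show d j i (f j i) = 0
      rw [hf j i (by lia), map_zero]
  have h2 : cpart c f j i = 0 := by
    cases j with
    | zero => rfl
    | succ j =>
      show c j i (f j i) = 0
      rw [hf j i (by lia), map_zero]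
  show dpart d f j i + cpart c f j i = 0
  rw [h1, h2, add_zero]

include dd cc dc in
/-- columns exact in degrees `0, 1, 2`, rows exact on the cokernels in degree `3` -/
theorem ctot_exact (hz : ∀ j i (x : K j (i + 4)), x = 0)
    (h0 : ∀ j (x : K j 0), d j 0 x = 0 → x = 0)
    (h1 : ∀ j i (x : K j (i + 1)), i + 1 < 3 → d j (i + 1) x = 0 → ∃ y, d j i y = x)
    (hr0 : ∀ (x : K 0 3) (z : K 1 2), c 0 3 x + d 1 2 z = 0 → ∃ w, d 0 2 w = x)
    (hr : ∀ j (x : K (j + 1) 3) (z : K (j + 1 + 1) 2), c (j + 1) 3 x + d (j + 1 + 1) 2 z = 0 →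
      ∃ (y : K j 3) (w : K (j + 1) 2), x = c j 3 y + d (j + 1) 2 w)
    (N : ℕ) (m : ℕ) : ∀ f : ∀ j i, K j i, (∀ j i, j + i ≠ N + 1 → f j i = 0) →
      ctot d c f = 0 → (∀ j i, m ≤ i → f j i = 0) →
      ∃ g : ∀ j i, K j i, (∀ j i, j + i ≠ N → g j i = 0) ∧ ctot d c g = f := by
  induction m with
  | zero =>
    intro f hs hf hm
    refine ⟨0, fun _ _ _ => rfl, ?_⟩
    have hf0 : f = 0 := by
      funext j i
      exact hm j i (Nat.zero_le _)
    rw [hf0]
    have := ctot_sub d c (0 : ∀ j i, K j i) 0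
    rw [sub_self, sub_self] at this
    exact this
  | succ m ih =>
    intro f hs hf hm
    -- it is enough to correct the components `(j, m)`
    have key : ∀ g1 : ∀ j i, K j i, (∀ j i, j + i ≠ N → g1 j i = 0) →
        (∀ j' i', m ≤ i' → j' + i' = N + 1 → ctot d c g1 j' i' = f j' i') →
        ∃ g : ∀ j i, K j i, (∀ j i, j + i ≠ N → g j i = 0) ∧ ctot d c g = f := by
      intro g1 hg1 hD
      obtain ⟨g2, hg2, hD2⟩ := ih (f - ctot d c g1) (by
        intro j' i' h
        show f j' i' - ctot d c g1 j' i' = 0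
        rw [hs j' i' h, ctot_supp d c hg1 j' i' h, sub_zero]) (by
        rw [ctot_sub, hf, ctot_ctot d c dd cc dc, sub_zero]) (by
        intro j' i' hi'
        show f j' i' - ctot d c g1 j' i' = 0
        by_cases h : j' + i' = N + 1
        · rw [hD j' i' hi' h, sub_self]
        · rw [hs j' i' h, ctot_supp d c hg1 j' i' h, sub_zero])
      refine ⟨g1 + g2, fun j' i' h => ?_, ?_⟩
      · show g1 j' i' + g2 j' i' = 0
        rw [hg1 j' i' h, hg2 j' i' h, add_zero]
      · rw [ctot_add, hD2, add_sub_cancel]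
    by_cases hmN : N + 1 < m
    · refine ih f hs hf (fun j i hi => hs j i (by lia))
    obtain ⟨j, hj⟩ : ∃ j, j + m = N + 1 := ⟨N + 1 - m, by lia⟩
    -- when the component `(j, m)` vanishes
    have triv : f j m = 0 → ∃ g : ∀ j i, K j i,
        (∀ j i, j + i ≠ N → g j i = 0) ∧ ctot d c g = f := by
      intro h
      refine ih f hs hf (fun j' i' hi' => ?_)
      by_cases h2 : i' = m
      · subst h2
        by_cases h3 : j' = j
        · subst h3
          exact h
        · exact hs j' i' (by lia)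
      · exact hm j' i' (by lia)
    match m, hm, hj, key, triv with
    | 0, hm, hj, key, triv =>
      apply triv
      apply h0
      have e1 := congrFun (congrFun hf j) 1
      have e2 : d j 0 (f j 0) + cpart c f j 1 = 0 := e1
      have e3 : cpart c f j 1 = 0 := by
        cases j with
        | zero => rfl
        | succ j =>
          show c j 1 (f j 1) = 0
          rw [hm j 1 (by lia), map_zero]
      rwa [e3, add_zero] at e2
    | m + 4, hm, hj, key, triv => exact triv (hz _ _ _)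
    | 3, hm, hj, key, triv =>
      have e1 := congrFun (congrFun hf (j + 1)) 3
      have e2' : d (j + 1) 2 (f (j + 1) 2) + c j 3 (f j 3) = 0 := e1
      have e2 : c j 3 (f j 3) + d (j + 1) 2 (f (j + 1) 2) = 0 := (add_comm _ _).trans e2'
      match j, hj, e2 with
      | 0, hj, e2 =>
        obtain ⟨w, hw⟩ := hr0 _ _ e2
        refine key (sg 0 2 w) ?_ ?_
        · intro j' i' h
          exact sg_ne w (by rintro ⟨rfl, rfl⟩; lia)
        · intro j' i' hi' hji
          obtain ⟨rfl, rfl⟩ : j' = 0 ∧ i' = 3 := by lia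
          show d 0 2 (sg 0 2 w 0 2) + 0 = f 0 3
          rw [sg_same, add_zero, hw]
      | j + 1, hj, e2 =>
        obtain ⟨y, w, hyw⟩ := hr _ _ _ e2
        refine key (sg j 3 y + sg (j + 1) 2 w) ?_ ?_
        · intro j' i' h
          show sg j 3 y j' i' + sg (j + 1) 2 w j' i' = 0
          rw [sg_ne y (by rintro ⟨rfl, rfl⟩; lia), sg_ne w (by rintro ⟨rfl, rfl⟩; lia), add_zero]
        · intro j' i' hi' hji
          by_cases h3 : i' = 3
          · obtain ⟨rfl, rfl⟩ : j' = j + 1 ∧ i' = 3 := by lia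
            show d (j + 1) 2 (sg j 3 y (j + 1) 2 + sg (j + 1) 2 w (j + 1) 2) +
              c j 3 (sg j 3 y j 3 + sg (j + 1) 2 w j 3) = f (j + 1) 3
            rw [sg_same, sg_same, sg_ne y (by rintro ⟨h1, h2⟩; lia),
              sg_ne w (by rintro ⟨h1, h2⟩; lia), zero_add, add_zero, hyw]
            exact add_comm _ _
          · obtain ⟨i'', rfl⟩ : ∃ i'', i' = i'' + 4 := ⟨i' - 4, by lia⟩
            rw [hz _ _ (f j' (i'' + 4)), hz _ _ (ctot d c _ j' (i'' + 4))]
    | 1, hm, hj, key, triv =>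
      have e1 := congrFun (congrFun hf j) 2
      have e2 : d j 1 (f j 1) + cpart c f j 2 = 0 := e1
      have e3 : cpart c f j 2 = 0 := by
        cases j with
        | zero => rfl
        | succ j =>
          show c j 2 (f j 2) = 0
          rw [hm j 2 (by lia), map_zero]
      rw [e3, add_zero] at e2
      obtain ⟨y, hy⟩ := h1 j 0 _ (by lia) e2
      refine key (sg j 0 y) ?_ ?_
      · intro j' i' h
        exact sg_ne y (by rintro ⟨rfl, rfl⟩; lia)
      · intro j' i' hi' hji
        obtain ⟨i'', rfl⟩ : ∃ i'', i' = i'' + 1 := ⟨i' - 1, by lia⟩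
        have e4 : cpart c (sg j 0 y) j' (i'' + 1) = 0 := by
          cases j' with
          | zero => rfl
          | succ j' =>
            show c j' (i'' + 1) (sg j 0 y j' (i'' + 1)) = 0
            rw [sg_ne y (by rintro ⟨h1, h2⟩; lia), map_zero]
        show d j' i'' (sg j 0 y j' i'') + cpart c (sg j 0 y) j' (i'' + 1) = f j' (i'' + 1)
        rw [e4, add_zero]
        by_cases hc : j' = j ∧ i'' = 0
        · obtain ⟨rfl, rfl⟩ := hc
          rw [sg_same, hy]
        · rw [sg_ne y hc, map_zero]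
          have : 1 < i'' + 1 := by
            by_contra h5
            exact hc ⟨by lia, by lia⟩
          rw [hm j' (i'' + 1) (by lia)]
    | 2, hm, hj, key, triv =>
      have e1 := congrFun (congrFun hf j) 3
      have e2 : d j 2 (f j 2) + cpart c f j 3 = 0 := e1
      have e3 : cpart c f j 3 = 0 := by
        cases j with
        | zero => rfl
        | succ j =>
          show c j 3 (f j 3) = 0
          rw [hm j 3 (by lia), map_zero]
      rw [e3, add_zero] at e2
      obtain ⟨y, hy⟩ := h1 j 1 _ (by lia) e2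
      refine key (sg j 1 y) ?_ ?_
      · intro j' i' h
        exact sg_ne y (by rintro ⟨rfl, rfl⟩; lia)
      · intro j' i' hi' hji
        obtain ⟨i'', rfl⟩ : ∃ i'', i' = i'' + 1 := ⟨i' - 1, by lia⟩
        have e4 : cpart c (sg j 1 y) j' (i'' + 1) = 0 := by
          cases j' with
          | zero => rfl
          | succ j' =>
            show c j' (i'' + 1) (sg j 1 y j' (i'' + 1)) = 0
            rw [sg_ne y (by rintro ⟨h1, h2⟩; lia), map_zero]
        show d j' i'' (sg j 1 y j' i'') + cpart c (sg j 1 y) j' (i'' + 1) = f j' (i'' + 1)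
        rw [e4, add_zero]
        by_cases hc : j' = j ∧ i'' = 1
        · obtain ⟨rfl, rfl⟩ := hc
          rw [sg_same, hy]
        · rw [sg_ne y hc, map_zero]
          have : 2 < i'' + 1 := by
            by_contra h5
            exact hc ⟨by lia, by lia⟩
          rw [hm j' (i'' + 1) (by lia)]

include dd cc dc in
theorem ctot_exact' (hz : ∀ j i (x : K j (i + 4)), x = 0)
    (h0 : ∀ j (x : K j 0), d j 0 x = 0 → x = 0)
    (h1 : ∀ j i (x : K j (i + 1)), i + 1 < 3 → d j (i + 1) x = 0 → ∃ y, d j i y = x)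
    (hr0 : ∀ (x : K 0 3) (z : K 1 2), c 0 3 x + d 1 2 z = 0 → ∃ w, d 0 2 w = x)
    (hr : ∀ j (x : K (j + 1) 3) (z : K (j + 1 + 1) 2), c (j + 1) 3 x + d (j + 1 + 1) 2 z = 0 →
      ∃ (y : K j 3) (w : K (j + 1) 2), x = c j 3 y + d (j + 1) 2 w)
    (N : ℕ) (f : ∀ j i, K j i) (hs : ∀ j i, j + i ≠ N + 1 → f j i = 0)
    (hf : ctot d c f = 0) :
    ∃ g : ∀ j i, K j i, (∀ j i, j + i ≠ N → g j i = 0) ∧ ctot d c g = f :=
  ctot_exact d c dd cc dc hz h0 h1 hr0 hr N 4 f hs hf (fun j i hi => by
    obtain ⟨i', rfl⟩ : ∃ i', i = i' + 4 := ⟨i - 4, by lia⟩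
    exact hz _ _ _)

end cochain

end P195D
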