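import Mathlib
import Vale.Agent.P195D.ExtTools

/-!
# P195: vanishing of all `Ext^i(S, W)` from an exact complex
-/

namespace P195D

open CategoryTheory

universe u

variable {A : Type u} [Ring A]

/-- the short exact sequence `0 → range d (n+1) → P (n+1) → range d n → 0` gives dimension shift -/
theorem ev_range (P : ℕ → Type u) [∀ n, AddCommGroup (P n)] [∀ n, Module A (P n)]
    [∀ n, Module.Projective A (P n)] (d : ∀ n, P (n + 1) →ₗ[A] P n)
    (hex : ∀ n, Function.Exact (d (n + 1)) (d n))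
    (W : Type u) [AddCommGroup W] [Module A W]
    (hW : ∀ n (φ : P (n + 1) →ₗ[A] W), φ ∘ₗ d (n + 1) = 0 → ∃ ψ : P n →ₗ[A] W, φ = ψ ∘ₗ d n) :
    ∀ i n, EV A (LinearMap.range (d n)) W (i + 1) := by
  have hs : ∀ n, Function.Exact (LinearMap.range (d (n + 1))).subtype (d n).rangeRestrict := by
    intro n x
    have h1 := hex n x
    constructor
    · intro hx
      have h2 : d n x = 0 := congrArg Subtype.val hx
      obtain ⟨y, hy⟩ := h1.1 h2
      exact ⟨⟨x, y, hy⟩, rfl⟩
    · rintro ⟨⟨y, z, hz⟩, rfl⟩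
      apply Subtype.ext
      show d n y = 0
      exact (hex n y).2 ⟨z, hz⟩
  intro i
  induction i with
  | zero =>
    intro n
    refine EV.of_extend (Submodule.injective_subtype _) (d n).surjective_rangeRestrict (hs n)
      (EV.of_projective 0) ?_
    intro u
    obtain ⟨χ, hχ⟩ := hW (n + 1) (u ∘ₗ (d (n + 1)).rangeRestrict) (by
      ext x
      show u ((d (n + 1)).rangeRestrict (d (n + 1 + 1) x)) = 0
      have h0 : (d (n + 1)).rangeRestrict (d (n + 1 + 1) x) = 0 := by
        apply Subtype.ext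
        exact (hex (n + 1) _).2 ⟨x, rfl⟩
      rw [h0, map_zero])
    refine ⟨χ, ?_⟩
    ext ⟨y, z, hz⟩
    have h3 := LinearMap.congr_fun hχ z
    show χ y = u ⟨y, z, hz⟩
    have h4 : u ((d (n + 1)).rangeRestrict z) = χ (d (n + 1) z) := h3
    have h5 : (d (n + 1)).rangeRestrict z = ⟨y, z, hz⟩ := Subtype.ext hz
    rw [h5] at h4
    rw [h4, hz]
  | succ i ih =>
    intro n
    exact EV.right (Submodule.injective_subtype _) (d n).surjective_rangeRestrict (hs n)
      (ih (n + 1)) (EV.of_projective (i + 1))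

/-- all `Ext` groups from the cokernel vanish when the complex stays exact under `Hom(-, W)` -/
theorem ev_of_complex (P : ℕ → Type u) [∀ n, AddCommGroup (P n)] [∀ n, Module A (P n)]
    [∀ n, Module.Projective A (P n)] (d : ∀ n, P (n + 1) →ₗ[A] P n)
    (hex : ∀ n, Function.Exact (d (n + 1)) (d n))
    (W : Type u) [AddCommGroup W] [Module A W]
    (hW0 : ∀ φ : P 0 →ₗ[A] W, φ ∘ₗ d 0 = 0 → φ = 0)
    (hW : ∀ n (φ : P (n + 1) →ₗ[A] W), φ ∘ₗ d (n + 1) = 0 → ∃ ψ : P n →ₗ[A] W, φ = ψ ∘ₗ d n) :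
    ∀ i, EV A (P 0 ⧸ LinearMap.range (d 0)) W i := by
  have hq : Function.Exact (LinearMap.range (d 0)).subtype (LinearMap.range (d 0)).mkQ := by
    rw [LinearMap.exact_iff, Submodule.ker_mkQ, Submodule.range_subtype]
  have hr := ev_range P d hex W hW
  intro i
  match i with
  | 0 =>
    rw [ev_zero_iff]
    intro f
    have h1 := hW0 (f ∘ₗ (LinearMap.range (d 0)).mkQ) (by
      ext x
      show f ((LinearMap.range (d 0)).mkQ (d 0 x)) = 0
      have : (LinearMap.range (d 0)).mkQ (d 0 x) = 0 := by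
        rw [Submodule.mkQ_apply, Submodule.Quotient.mk_eq_zero]
        exact ⟨x, rfl⟩
      rw [this, map_zero])
    ext x
    exact LinearMap.congr_fun h1 x
  | 1 =>
    refine EV.of_extend (Submodule.injective_subtype _) (Submodule.mkQ_surjective _) hq
      (EV.of_projective 0) ?_
    intro u
    obtain ⟨χ, hχ⟩ := hW 0 (u ∘ₗ (d 0).rangeRestrict) (by
      ext x
      show u ((d 0).rangeRestrict (d (0 + 1) x)) = 0
      have h0 : (d 0).rangeRestrict (d (0 + 1) x) = 0 := by
        apply Subtype.ext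
        exact (hex 0 _).2 ⟨x, rfl⟩
      rw [h0, map_zero])
    refine ⟨χ, ?_⟩
    ext ⟨y, z, hz⟩
    have h4 : u ((d 0).rangeRestrict z) = χ (d 0 z) := LinearMap.congr_fun hχ z
    show χ y = u ⟨y, z, hz⟩
    have h5 : (d 0).rangeRestrict z = ⟨y, z, hz⟩ := Subtype.ext hz
    rw [h5] at h4
    rw [h4, hz]
  | i + 2 =>
    exact EV.right (Submodule.injective_subtype _) (Submodule.mkQ_surjective _) hq
      (hr i 0) (EV.of_projective (i + 1))

end P195D
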