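import Mathlib
import Vale.Agent.P195D.CatAlg
import Vale.Agent.P195D.Res
import Vale.Agent.P195D.Dbl
import Vale.Agent.P195D.Ar

/-!
# P195: a double complex in a linear category which violates the Auslander-Reiten conjecture
-/

namespace P195D

open CategoryTheory

universe v u

variable {C : Type u} [Category.{v} C] [Preadditive C] {ι : Type} [Fintype ι] (T : ι → C)

/-- all bidegrees together -/
abbrev Full (E : ℕ → ℕ → C) : Type v := ∀ j i, CMod T (E j i)

variable {T} {E : ℕ → ℕ → C} (d : ∀ j i, E j (i + 1) ⟶ E j i) (c : ∀ j i, E (j + 1) i ⟶ E j i)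

variable (T) in
/-- the part of total degree `N` -/
def PTot (E : ℕ → ℕ → C) (N : ℕ) : Submodule (CAlg T) (Full T E) where
  carrier := {x | ∀ j i, j + i ≠ N → x j i = 0}
  add_mem' := fun {x y} hx hy j i h => by
    show x j i + y j i = 0
    rw [hx j i h, hy j i h, add_zero]
  zero_mem' := fun _ _ _ => rfl
  smul_mem' := fun a x hx j i h => by
    show a • x j i = 0
    rw [hx j i h, smul_zero]

theorem mem_PTot {N : ℕ} {x : Full T E} : x ∈ PTot T E N ↔ ∀ j i, j + i ≠ N → x j i = 0 := Iff.rfl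

variable (T) in
/-- the total differential -/
noncomputable def DFull : Full T E →ₗ[CAlg T] Full T E :=
  LinearMap.pi fun j => LinearMap.pi fun i =>
    (cmap T (d j i)) ∘ₗ (LinearMap.proj (i + 1)) ∘ₗ (LinearMap.proj j) +
    (cmap T (c j i)) ∘ₗ (LinearMap.proj i) ∘ₗ (LinearMap.proj (j + 1))

theorem DFull_apply (x : Full T E) (j i : ℕ) :
    DFull T d c x j i = cmap T (d j i) (x j (i + 1)) + cmap T (c j i) (x (j + 1) i) := rfl

theorem DFull_mem {N : ℕ} {x : Full T E} (hx : x ∈ PTot T E (N + 1)) :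
    DFull T d c x ∈ PTot T E N := by
  intro j i h
  rw [DFull_apply, hx j (i + 1) (by lia), hx (j + 1) i (by lia), map_zero, map_zero, add_zero]

variable (T) in
/-- the total differential in degree `N` -/
noncomputable def DTot (N : ℕ) : PTot T E (N + 1) →ₗ[CAlg T] PTot T E N :=
  (DFull T d c).restrict (fun _ hx => DFull_mem d c hx)

theorem DTot_val (N : ℕ) (x : PTot T E (N + 1)) : (DTot T d c N x).1 = DFull T d c x.1 := rfl

variable (T) (E) in
/-- the bigraded group -/
abbrev GG : ℕ → ℕ → Type v := fun j i => CMod T (E j i)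

/-- the inclusion of one summand -/
noncomputable def inc (j i : ℕ) : CMod T (E j i) →ₗ[CAlg T] PTot T E (j + i) where
  toFun x := ⟨sg (G := GG T E) j i x, fun j' i' h =>
    sg_ne (G := GG T E) x (by rintro ⟨rfl, rfl⟩; exact h rfl)⟩
  map_add' x y := by
    apply Subtype.ext
    funext j' i'
    show sg (G := GG T E) j i (x + y) j' i' =
      sg (G := GG T E) j i x j' i' +
        sg (G := GG T E) j i y j' i'
    by_cases h : j' = j ∧ i' = i
    · obtain ⟨rfl, rfl⟩ := h
      rw [sg_same (G := GG T E), sg_same (G := GG T E), sg_same (G := GG T E)]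
    · rw [sg_ne (G := GG T E) _ h, sg_ne (G := GG T E) _ h, sg_ne (G := GG T E) _ h, add_zero]
  map_smul' a x := by
    apply Subtype.ext
    funext j' i'
    show sg (G := GG T E) j i (a • x) j' i' =
      a • sg (G := GG T E) j i x j' i'
    by_cases h : j' = j ∧ i' = i
    · obtain ⟨rfl, rfl⟩ := h
      rw [sg_same (G := GG T E), sg_same (G := GG T E)]
    · rw [sg_ne (G := GG T E) _ h, sg_ne (G := GG T E) _ h, smul_zero]

theorem inc_same (j i : ℕ) (x : CMod T (E j i)) : (inc j i x).1 j i = x := sg_same (G := GG T E) j i x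

theorem inc_ne {j i : ℕ} (x : CMod T (E j i)) {j' i' : ℕ} (h : ¬ (j' = j ∧ i' = i)) :
    (inc j i x).1 j' i' = 0 := sg_ne (G := GG T E) x h

/-- inclusion with a proof of the degree -/
noncomputable def inc' {N : ℕ} (j i : ℕ) (h : j + i = N) : CMod T (E j i) →ₗ[CAlg T] PTot T E N :=
  (LinearEquiv.ofEq _ _ (congrArg (PTot T E) h)).toLinearMap ∘ₗ inc j i

theorem inc'_same {N : ℕ} (j i : ℕ) (h : j + i = N) (x : CMod T (E j i)) :
    (inc' j i h x).1 j i = x := sg_same (G := GG T E) j i x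

theorem inc'_ne {N : ℕ} {j i : ℕ} (hN : j + i = N) (x : CMod T (E j i)) {j' i' : ℕ}
    (h : ¬ (j' = j ∧ i' = i)) :
    (inc' j i hN x).1 j' i' = 0 := sg_ne (G := GG T E) x h

theorem coe_sum_PTot {N : ℕ} {α : Type} (s : Finset α) (g : α → PTot T E N) (j i : ℕ) :
    (∑ a ∈ s, g a).1 j i = ∑ a ∈ s, (g a).1 j i := by
  rw [AddSubmonoidClass.coe_finsetSum, Finset.sum_apply, Finset.sum_apply]

/-- decomposition of an element of the total complex -/
theorem sum_inc {N : ℕ} (x : PTot T E N) :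
    x = ∑ p ∈ (Finset.HasAntidiagonal.antidiagonal N).attach,
      inc' p.1.1 p.1.2 (Finset.HasAntidiagonal.mem_antidiagonal.1 p.2) (x.1 p.1.1 p.1.2) := by
  apply Subtype.ext
  funext j i
  rw [coe_sum_PTot]
  by_cases h : j + i = N
  · rw [Finset.sum_eq_single ⟨(j, i), Finset.HasAntidiagonal.mem_antidiagonal.2 h⟩]
    · rw [inc'_same]
    · rintro ⟨⟨j', i'⟩, hp⟩ _ hne
      exact inc'_ne _ _ (by
        rintro ⟨rfl, rfl⟩
        exact hne rfl)
    · intro hne
      exact absurd (Finset.mem_attach _ _) hne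
  · rw [x.2 j i h]
    symm
    refine Finset.sum_eq_zero fun p _ => inc'_ne _ _ ?_
    rintro ⟨rfl, rfl⟩
    exact h (Finset.HasAntidiagonal.mem_antidiagonal.1 p.2)

theorem projective_PTot (hE : ∀ j i, InAdd T (E j i)) (N : ℕ) :
    Module.Projective (CAlg T) (PTot T E N) := by
  have h1 : ∀ p : ℕ × ℕ, Module.Projective (CAlg T) (CMod T (E p.1 p.2)) :=
    fun p => projective_of_inAdd T (hE p.1 p.2)
  have h2 : Module.Projective (CAlg T)
      (Π₀ p : {p : ℕ × ℕ // p ∈ Finset.HasAntidiagonal.antidiagonal N}, CMod T (E p.1.1 p.1.2)) := inferInstance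
  have h3 : Module.Projective (CAlg T)
      (∀ p : {p : ℕ × ℕ // p ∈ Finset.HasAntidiagonal.antidiagonal N}, CMod T (E p.1.1 p.1.2)) :=
    Module.Projective.of_equiv DFinsupp.linearEquivFunOnFintype
  let i : PTot T E N →ₗ[CAlg T]
      (∀ p : {p : ℕ × ℕ // p ∈ Finset.HasAntidiagonal.antidiagonal N}, CMod T (E p.1.1 p.1.2)) :=
    LinearMap.pi fun p => (LinearMap.proj p.1.2) ∘ₗ (LinearMap.proj p.1.1) ∘ₗ
      (PTot T E N).subtype
  let r : (∀ p : {p : ℕ × ℕ // p ∈ Finset.HasAntidiagonal.antidiagonal N}, CMod T (E p.1.1 p.1.2)) →ₗ[CAlg T]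
      PTot T E N :=
    ∑ p ∈ (Finset.HasAntidiagonal.antidiagonal N).attach,
      (inc' p.1.1 p.1.2 (Finset.HasAntidiagonal.mem_antidiagonal.1 p.2)) ∘ₗ (LinearMap.proj p)
  refine Module.Projective.of_split i r ?_
  ext x : 1
  have h4 : r (i x) = ∑ p ∈ (Finset.HasAntidiagonal.antidiagonal N).attach,
      inc' p.1.1 p.1.2 (Finset.HasAntidiagonal.mem_antidiagonal.1 p.2) (x.1 p.1.1 p.1.2) := by
    simp only [r, LinearMap.sum_apply]
    rfl
  show r (i x) = x
  rw [h4, ← sum_inc]

end P195D
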