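import Mathlib
import Vale.Agent.P195D.Tot

/-!
# P195: a double complex in a linear category which violates the Auslander-Reiten conjecture
-/

namespace P195D

open CategoryTheory

universe v u

variable {C : Type u} [Category.{v} C] [Preadditive C] {ι : Type}

/-- a double complex of objects of `add T` (four rows), exact for tests on both sides -/
structure GoodDouble (T : ι → C) (L : ι) (E : ℕ → ℕ → C) (d : ∀ j i, E j (i + 1) ⟶ E j i)
    (c : ∀ j i, E (j + 1) i ⟶ E j i) : Prop where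
  dd : ∀ j i, d j (i + 1) ≫ d j i = 0
  cc : ∀ j i, c (j + 1) i ≫ c j i = 0
  dc : ∀ j i, d (j + 1) i ≫ c j i + c j (i + 1) ≫ d j i = 0
  add : ∀ j i, InAdd T (E j i)
  zero : ∀ j i, Limits.IsZero (E j (i + 4))
  corner : Nonempty (E 0 0 ≅ T L)
  col : ∀ w j i (x : T w ⟶ E j (i + 1)), x ≫ d j i = 0 → ∃ y, y ≫ d j (i + 1) = x
  row : ∀ w j (x : T w ⟶ E (j + 1) 0) (z : T w ⟶ E j 1), x ≫ c j 0 + z ≫ d j 0 = 0 →
    ∃ (y : T w ⟶ E (j + 1 + 1) 0) (u : T w ⟶ E (j + 1) 1), x = y ≫ c (j + 1) 0 + u ≫ d (j + 1) 0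
  top : ∀ w, w ≠ L → ∀ x : T w ⟶ E 0 0, ∃ (y : T w ⟶ E 0 1) (z : T w ⟶ E 1 0),
    x = y ≫ d 0 0 + z ≫ c 0 0
  topL : ∀ (y : T L ⟶ E 0 1) (z : T L ⟶ E 1 0), y ≫ d 0 0 + z ≫ c 0 0 = 0
  col0 : ∀ w j (x : E j 0 ⟶ T w), d j 0 ≫ x = 0 → x = 0
  col1 : ∀ w j i (x : E j (i + 1) ⟶ T w), i + 1 < 3 → d j (i + 1) ≫ x = 0 → ∃ y, d j i ≫ y = x
  row0 : ∀ w (x : E 0 3 ⟶ T w) (z : E 1 2 ⟶ T w), c 0 3 ≫ x + d 1 2 ≫ z = 0 →
    ∃ y, d 0 2 ≫ y = x
  row1 : ∀ w j (x : E (j + 1) 3 ⟶ T w) (z : E (j + 1 + 1) 2 ⟶ T w),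
    c (j + 1) 3 ≫ x + d (j + 1 + 1) 2 ≫ z = 0 →
    ∃ (y : E j 3 ⟶ T w) (u : E (j + 1) 2 ⟶ T w), x = c j 3 ≫ y + d (j + 1) 2 ≫ u

variable {T : ι → C} {L : ι} {E : ℕ → ℕ → C} {d : ∀ j i, E j (i + 1) ⟶ E j i}
  {c : ∀ j i, E (j + 1) i ⟶ E j i}

theorem GoodDouble.cd (h : GoodDouble T L E d c) (j i : ℕ) :
    c j (i + 1) ≫ d j i + d (j + 1) i ≫ c j i = 0 := (add_comm _ _).trans (h.dc j i)

variable [Fintype ι]

theorem exact_DTot (h : GoodDouble T L E d c) (N : ℕ) :
    Function.Exact (DTot T d c (N + 1)) (DTot T d c N) := by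
  intro x
  constructor
  · intro hx
    have hx' : DFull T d c x.1 = 0 := congrArg Subtype.val hx
    have key : ∀ w, ∃ y : ∀ j i, T w ⟶ E j i, (∀ j i, j + i ≠ N + 2 → y j i = 0) ∧
        ∀ j i, y j (i + 1) ≫ d j i + y (j + 1) i ≫ c j i = x.1 j i w := by
      intro w
      obtain ⟨y, hy, hD⟩ := dtot_exact (G := fun j i => (T w ⟶ E j i))
        (fun j i => Preadditive.rightComp (T w) (d j i))
        (fun j i => Preadditive.rightComp (T w) (c j i))
        (fun j i y => by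
          show (y ≫ d j (i + 1)) ≫ d j i = 0
          rw [Category.assoc, h.dd, Limits.comp_zero])
        (fun j i y => by
          show (y ≫ c (j + 1) i) ≫ c j i = 0
          rw [Category.assoc, h.cc, Limits.comp_zero])
        (fun j i y => by
          show (y ≫ d (j + 1) i) ≫ c j i + (y ≫ c j (i + 1)) ≫ d j i = 0
          rw [Category.assoc, Category.assoc, ← Preadditive.comp_add, h.dc, Limits.comp_zero])
        (fun j i y hy => h.col w j i y hy)
        (fun j y z hyz => h.row w j y z hyz)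
        N (N + 2) 0 (by lia) (fun j i => x.1 j i w) (fun j i hji => by
          show x.1 j i w = 0
          rw [x.2 j i hji]
          rfl)
        (by
          funext j i
          have h1 := congrFun (congrFun (congrFun hx' j) i) w
          exact h1)
        (fun j i hi => absurd hi (Nat.not_lt_zero _))
      exact ⟨y, hy, fun j i => congrFun (congrFun hD j) i⟩
    choose y hy hD using key
    refine ⟨⟨fun j i w => y w j i, fun j i hji => ?_⟩, ?_⟩
    · ext w
      exact hy w j i hji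
    · apply Subtype.ext
      funext j i
      ext w
      exact hD w j i
  · rintro ⟨y, rfl⟩
    apply Subtype.ext
    funext j i
    ext w
    show (y.1 j (i + 1 + 1) w ≫ d j (i + 1) + y.1 (j + 1) (i + 1) w ≫ c j (i + 1)) ≫ d j i +
      (y.1 (j + 1) (i + 1) w ≫ d (j + 1) i + y.1 (j + 1 + 1) i w ≫ c (j + 1) i) ≫ c j i = 0
    rw [Preadditive.add_comp, Preadditive.add_comp, Category.assoc, Category.assoc,
      Category.assoc, Category.assoc, h.dd, h.cc, Limits.comp_zero, Limits.comp_zero, zero_add,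
      add_zero, ← Preadditive.comp_add, h.cd, Limits.comp_zero]

/-- the linear form given by a family of morphisms -/
noncomputable def evF (F : ∀ l j i, E j i ⟶ T l) (N : ℕ) : PTot T E N →ₗ[CAlg T] CAlg T :=
  ∑ p ∈ Finset.HasAntidiagonal.antidiagonal N,
    (cmat T (fun l => F l p.1 p.2)) ∘ₗ (LinearMap.proj p.2) ∘ₗ (LinearMap.proj p.1) ∘ₗ
      (PTot T E N).subtype

theorem CAlg.sum_apply {α : Type} (s : Finset α) (g : α → CAlg T) (i l : ι) :
    (∑ a ∈ s, g a) i l = ∑ a ∈ s, g a i l := by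
  have h1 : (∑ a ∈ s, g a) i = ∑ a ∈ s, g a i := Finset.sum_apply i s g
  rw [h1]
  exact Finset.sum_apply l s _

theorem evF_apply (F : ∀ l j i, E j i ⟶ T l) (N : ℕ) (x : PTot T E N) (w l : ι) :
    evF F N x w l = ∑ p ∈ Finset.HasAntidiagonal.antidiagonal N,
      x.1 p.1 p.2 w ≫ F l p.1 p.2 := by
  unfold evF
  rw [LinearMap.sum_apply, CAlg.sum_apply]
  rfl

/-- the codifferential of a family -/
def coF (T : ι → C) (d : ∀ j i, E j (i + 1) ⟶ E j i) (c : ∀ j i, E (j + 1) i ⟶ E j i)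
    (F : ∀ l j i, E j i ⟶ T l) : ∀ l j i, E j i ⟶ T l :=
  fun l => ctot (K := fun j i => (E j i ⟶ T l)) (fun j i => Preadditive.leftComp (T l) (d j i))
    (fun j i => Preadditive.leftComp (T l) (c j i)) (F l)

theorem evF_DTot (F : ∀ l j i, E j i ⟶ T l) (N : ℕ) (x : PTot T E (N + 1)) :
    evF F N (DTot T d c N x) = evF (coF T d c F) (N + 1) x := by
  ext w l
  rw [evF_apply, evF_apply]
  let A : ℕ × ℕ → (T w ⟶ T l) := fun p => x.1 p.1 p.2 w ≫
    dpart (K := fun j i => (E j i ⟶ T l)) (fun j i => Preadditive.leftComp (T l) (d j i))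
      (F l) p.1 p.2
  let B : ℕ × ℕ → (T w ⟶ T l) := fun p => x.1 p.1 p.2 w ≫
    cpart (K := fun j i => (E j i ⟶ T l)) (fun j i => Preadditive.leftComp (T l) (c j i))
      (F l) p.1 p.2
  have h1 : ∑ p ∈ Finset.HasAntidiagonal.antidiagonal (N + 1),
      x.1 p.1 p.2 w ≫ coF T d c F l p.1 p.2 =
      (∑ p ∈ Finset.HasAntidiagonal.antidiagonal (N + 1), A p) +
        ∑ p ∈ Finset.HasAntidiagonal.antidiagonal (N + 1), B p := by
    rw [← Finset.sum_add_distrib]
    exact Finset.sum_congr rfl fun p _ => Preadditive.comp_add _ _ _ _ _ _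
  rw [h1, Finset.Nat.sum_antidiagonal_succ (f := B), Finset.Nat.sum_antidiagonal_succ' (f := A)]
  have hA0 : A (N + 1, 0) = 0 := Limits.comp_zero
  have hB0 : B (0, N + 1) = 0 := Limits.comp_zero
  rw [hA0, hB0, zero_add, zero_add, ← Finset.sum_add_distrib]
  refine Finset.sum_congr rfl fun p _ => ?_
  show (x.1 p.1 (p.2 + 1) w ≫ d p.1 p.2 + x.1 (p.1 + 1) p.2 w ≫ c p.1 p.2) ≫ F l p.1 p.2 =
    x.1 p.1 (p.2 + 1) w ≫ (d p.1 p.2 ≫ F l p.1 p.2) +
    x.1 (p.1 + 1) p.2 w ≫ (c p.1 p.2 ≫ F l p.1 p.2)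
  rw [Preadditive.add_comp, Category.assoc, Category.assoc]

theorem eq_zero_of_cmat {X : C} (hX : InAdd T X) (f : ∀ l, X ⟶ T l) (hf : cmat T f = 0) (l : ι) :
    f l = 0 := by
  obtain ⟨J, hJ, o, p, q, hpq⟩ := hX
  have h1 : ∀ a, q a ≫ f l = 0 := by
    intro a
    have h2 := LinearMap.congr_fun hf (fun i => unitC T i (o a) ≫ q a)
    have h3 : (unitC T (o a) (o a) ≫ q a) ≫ f l = 0 := congrFun (congrFun h2 (o a)) l
    rwa [unitC_self, Category.id_comp] at h3
  calc f l = (∑ a, p a ≫ q a) ≫ f l := by rw [hpq, Category.id_comp]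
    _ = ∑ a, p a ≫ q a ≫ f l := by
      rw [Preadditive.sum_comp]
      exact Finset.sum_congr rfl fun a _ => Category.assoc _ _ _
    _ = 0 := Finset.sum_eq_zero fun a _ => by rw [h1, Limits.comp_zero]

theorem exists_evF (hE : ∀ j i, InAdd T (E j i)) (N : ℕ) (φ : PTot T E N →ₗ[CAlg T] CAlg T) :
    ∃ F : ∀ l j i, E j i ⟶ T l, (∀ l j i, j + i ≠ N → F l j i = 0) ∧ φ = evF F N := by
  classical
  have h1 : ∀ p : {p : ℕ × ℕ // p.1 + p.2 = N}, ∃ f : ∀ l, E p.1.1 p.1.2 ⟶ T l,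
      φ ∘ₗ inc' p.1.1 p.1.2 p.2 = cmat T f := fun p => exists_cmat T (hE _ _) _
  choose f hf using h1
  refine ⟨fun l j i => if h : j + i = N then f ⟨(j, i), h⟩ l else 0, fun l j i h => dif_neg h, ?_⟩
  ext x : 1
  ext w l
  rw [evF_apply]
  conv_lhs => rw [sum_inc x]
  rw [map_sum, CAlg.sum_apply, ← Finset.sum_attach (Finset.HasAntidiagonal.antidiagonal N)]
  refine Finset.sum_congr rfl fun p _ => ?_
  have hp := Finset.HasAntidiagonal.mem_antidiagonal.1 p.2
  have h2 := LinearMap.congr_fun (hf ⟨p.1, hp⟩) (x.1 p.1.1 p.1.2)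
  have h3 := congrFun (congrFun h2 w) l
  rw [dif_pos hp]
  exact h3

theorem coF_supp {N : ℕ} {F : ∀ l j i, E j i ⟶ T l} (hF : ∀ l j i, j + i ≠ N → F l j i = 0)
    (l : ι) : ∀ j i, j + i ≠ N + 1 → coF T d c F l j i = 0 :=
  ctot_supp (K := fun j i => (E j i ⟶ T l)) _ _ (hF l)

theorem coF_eq_zero (hE : ∀ j i, InAdd T (E j i)) {N : ℕ} {F : ∀ l j i, E j i ⟶ T l}
    (hF : ∀ l j i, j + i ≠ N → F l j i = 0) (h : evF (coF T d c F) (N + 1) = 0) (l : ι) :
    coF T d c F l = 0 := by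
  funext j i
  by_cases hji : j + i = N + 1
  · refine eq_zero_of_cmat (hE j i) (fun l => coF T d c F l j i) ?_ l
    ext x : 1
    ext w l
    have h1 := LinearMap.congr_fun h (inc' j i hji x)
    have h2 := congrFun (congrFun h1 w) l
    rw [evF_apply, Finset.sum_eq_single (j, i)] at h2
    · rw [inc'_same] at h2
      exact h2
    · rintro ⟨j', i'⟩ _ hne
      have h3 : (inc' j i hji x).1 j' i' = 0 := inc'_ne hji x (by
        rintro ⟨rfl, rfl⟩
        exact hne rfl)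
      show (inc' j i hji x).1 j' i' w ≫ _ = 0
      rw [h3]
      exact Limits.zero_comp
    · intro hne
      exact absurd (Finset.HasAntidiagonal.mem_antidiagonal.2 hji) hne
  · exact coF_supp hF l j i hji

theorem cohom_DTot (h : GoodDouble T L E d c) (N : ℕ) (φ : PTot T E (N + 1) →ₗ[CAlg T] CAlg T)
    (hφ : φ ∘ₗ DTot T d c (N + 1) = 0) : ∃ ψ : PTot T E N →ₗ[CAlg T] CAlg T,
      φ = ψ ∘ₗ DTot T d c N := by
  obtain ⟨F, hF, rfl⟩ := exists_evF h.add (N + 1) φ
  have h1 : evF (coF T d c F) (N + 1 + 1) = 0 := by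
    ext x : 1
    rw [← evF_DTot]
    exact LinearMap.congr_fun hφ x
  have h2 := coF_eq_zero h.add hF h1
  have h3 : ∀ l, ∃ g : ∀ j i, E j i ⟶ T l, (∀ j i, j + i ≠ N → g j i = 0) ∧
      ctot (K := fun j i => (E j i ⟶ T l)) (fun j i => Preadditive.leftComp (T l) (d j i))
        (fun j i => Preadditive.leftComp (T l) (c j i)) g = F l := by
    intro l
    refine ctot_exact' (K := fun j i => (E j i ⟶ T l))
      (fun j i => Preadditive.leftComp (T l) (d j i))
      (fun j i => Preadditive.leftComp (T l) (c j i))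
      (fun j i y => by
        show d j (i + 1) ≫ d j i ≫ y = 0
        rw [← Category.assoc, h.dd, Limits.zero_comp])
      (fun j i y => by
        show c (j + 1) i ≫ c j i ≫ y = 0
        rw [← Category.assoc, h.cc, Limits.zero_comp])
      (fun j i y => by
        show c j (i + 1) ≫ d j i ≫ y + d (j + 1) i ≫ c j i ≫ y = 0
        rw [← Category.assoc, ← Category.assoc, ← Preadditive.add_comp, h.cd,
          Limits.zero_comp])
      (fun j i x => (h.zero j i).eq_of_src _ _)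
      (fun j x hx => h.col0 l j x hx)
      (fun j i x hi hx => h.col1 l j i x hi hx)
      (fun x z hxz => h.row0 l x z hxz)
      (fun j x z hxz => h.row1 l j x z hxz)
      N (F l) (hF l) (h2 l)
  choose G hG hGF using h3
  refine ⟨evF G N, ?_⟩
  ext x : 1
  show evF F (N + 1) x = evF G N (DTot T d c N x)
  rw [evF_DTot]
  have h4 : coF T d c G = F := by
    funext l
    exact hGF l
  rw [h4]

theorem cohom_DTot_zero (h : GoodDouble T L E d c) (φ : PTot T E 0 →ₗ[CAlg T] CAlg T)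
    (hφ : φ ∘ₗ DTot T d c 0 = 0) : φ = 0 := by
  obtain ⟨F, hF, rfl⟩ := exists_evF h.add 0 φ
  have h1 : evF (coF T d c F) (0 + 1) = 0 := by
    ext x : 1
    rw [← evF_DTot]
    exact LinearMap.congr_fun hφ x
  have h2 := coF_eq_zero h.add hF h1
  have h3 : F = 0 := by
    funext l j i
    by_cases hji : j + i = 0
    · obtain ⟨rfl, rfl⟩ : j = 0 ∧ i = 0 := by lia
      apply h.col0
      have h4 := congrFun (congrFun (h2 l) 0) 1
      have h5 : d 0 0 ≫ F l 0 0 + 0 = 0 := h4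
      rwa [add_zero] at h5
    · exact hF l j i hji
  ext x : 1
  ext w l
  rw [evF_apply, h3]
  exact Finset.sum_eq_zero fun p _ => Limits.comp_zero

/-- the idempotent of the object `L` -/
noncomputable def eL (T : ι → C) (L : ι) : CAlg T := fun i j => unitC T i L ≫ unitC T L j

theorem eL_smul {X : C} (x : CMod T X) (w : ι) : (eL T L • x) w = unitC T w L ≫ x L := by
  show ∑ j, (unitC T w L ≫ unitC T L j) ≫ x j = _
  simp only [Category.assoc]
  rw [← Preadditive.comp_sum]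
  exact congrArg (fun z => unitC T w L ≫ z) (sum_unitC_comp T L x)

theorem eL_mul (a : CAlg T) (i l : ι) : (eL T L * a) i l = unitC T i L ≫ a L l := by
  show ∑ j, (unitC T i L ≫ unitC T L j) ≫ a j l = _
  simp only [Category.assoc]
  rw [← Preadditive.comp_sum, sum_unitC_comp T L (fun j => a j l)]

theorem mul_eL (a : CAlg T) (i l : ι) : (a * eL T L) i l = a i L ≫ unitC T L l := by
  show ∑ j, a i j ≫ unitC T j L ≫ unitC T L l = _
  simp only [← Category.assoc]
  rw [← Preadditive.sum_comp, sum_comp_unitC T L (fun j => a i j)]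

theorem eL_idem : IsIdempotentElem (eL T L) := by
  ext i l
  rw [eL_mul]
  show unitC T i L ≫ unitC T L L ≫ unitC T L l = _
  rw [unitC_self, Category.id_comp]
  rfl

/-- the Auslander-Reiten conjecture fails -/
theorem ar_of_double {k : Type} [Field k] [Linear k C] [∀ i j, Module.Finite k (T i ⟶ T j)]
    (hL : ∀ f : T L ⟶ T L, ∃ a : k, f = a • 𝟙 (T L)) (hL0 : 𝟙 (T L) ≠ 0)
    (h : GoodDouble T L E d c) :
    ∃ (R : Type v) (_ : Ring R) (_ : Algebra k R) (M : ModuleCat.{v} R),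
      Module.Finite k R ∧ Module.Finite R M ∧
      (∀ i, 1 ≤ i → Vale.Agent.P195.ExtVanish M i) ∧ ¬ Module.Projective R M := by
  have hfin : Module.Finite k (CAlg T) := finite_CAlg T
  have hproj := fun N => projective_PTot (T := T) h.add N
  have hEV := ev_of_complex (A := CAlg T) (fun N => PTot T E N) (fun N => DTot T d c N)
    (fun N => exact_DTot h N) (CAlg T) (fun φ hφ => cohom_DTot_zero h φ hφ)
    (fun N φ hφ => cohom_DTot h N φ hφ)
  have he : IsIdempotentElem (1 - eL T L) := eL_idem.one_sub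
  obtain ⟨g⟩ := h.corner
  let η : CMod T (E 0 0) := fun w => unitC T w L ≫ g.inv
  let x0 : PTot T E 0 := inc' 0 0 rfl η
  refine ar_counterexample (e := 1 - eL T L) (k := k) he ?_ _ ?_
    (Submodule.Quotient.mk x0 : PTot T E 0 ⧸ LinearMap.range (DTot T d c 0)) ?_ ?_ hEV
  · -- local
    intro a
    obtain ⟨b, hb⟩ := hL (a L L)
    refine ⟨b, ?_⟩
    rw [sub_sub_cancel]
    ext i l
    rw [mul_eL, eL_mul, hb, CAlg.smul_apply]
    show (unitC T i L ≫ (b • 𝟙 (T L))) ≫ unitC T L l = b • (unitC T i L ≫ unitC T L l)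
    rw [Linear.comp_smul, Linear.smul_comp, Category.comp_id]
  · -- killed by `e`
    intro s
    obtain ⟨x, rfl⟩ := Submodule.Quotient.mk_surjective _ s
    rw [← Submodule.Quotient.mk_smul, Submodule.Quotient.mk_eq_zero]
    have hy : ∀ w, ∃ (y : T w ⟶ E 0 1) (z : T w ⟶ E 1 0),
        y ≫ d 0 0 + z ≫ c 0 0 = x.1 0 0 w - unitC T w L ≫ x.1 0 0 L := by
      intro w
      by_cases hw : w = L
      · subst hw
        refine ⟨0, 0, ?_⟩
        rw [unitC_self, Category.id_comp, sub_self, Limits.zero_comp, Limits.zero_comp, add_zero]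
      · obtain ⟨y, z, hyz⟩ := h.top w hw (x.1 0 0 w)
        refine ⟨y, z, ?_⟩
        rw [unitC_ne T hw, Limits.zero_comp, sub_zero, hyz]
    choose y z hyz using hy
    let Y : PTot T E (0 + 1) := inc' 0 1 rfl y
    let Z : PTot T E (0 + 1) := inc' 1 0 rfl z
    have hY : Y.1 0 1 = y := inc'_same 0 1 rfl y
    have hZ : Z.1 1 0 = z := inc'_same 1 0 rfl z
    have hY0 : Y.1 1 0 = 0 := inc'_ne rfl y (by rintro ⟨h1, h2⟩; lia)
    have hZ0 : Z.1 0 1 = 0 := inc'_ne rfl z (by rintro ⟨h1, h2⟩; lia)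
    refine ⟨Y + Z, ?_⟩
    apply Subtype.ext
    funext j i
    by_cases hji : j + i = 0
    · obtain ⟨rfl, rfl⟩ : j = 0 ∧ i = 0 := by lia
      ext w
      show (Y.1 0 1 w + Z.1 0 1 w) ≫ d 0 0 + (Y.1 1 0 w + Z.1 1 0 w) ≫ c 0 0 =
        ((1 - eL T L) • x.1 0 0) w
      rw [hY, hZ, hY0, hZ0]
      have e1 : ((1 - eL T L) • x.1 0 0) w = x.1 0 0 w - unitC T w L ≫ x.1 0 0 L := by
        rw [sub_smul, one_smul]
        show x.1 0 0 w - (eL T L • x.1 0 0) w = _
        rw [eL_smul]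
      rw [e1, ← hyz w]
      show (y w + (0 : T w ⟶ E 0 1)) ≫ d 0 0 + ((0 : T w ⟶ E 1 0) + z w) ≫ c 0 0 = _
      rw [add_zero, zero_add]
    · have e2 := (DTot T d c 0 (Y + Z)).2 j i hji
      have e3 := ((1 - eL T L) • x).2 j i hji
      exact e2.trans e3.symm
  · -- nonzero
    intro h0
    rw [Submodule.Quotient.mk_eq_zero] at h0
    obtain ⟨y, hy⟩ := h0
    have h1 := congrFun (congrFun (congrFun (congrArg Subtype.val hy) 0) 0) L
    have h2 : y.1 0 1 L ≫ d 0 0 + y.1 1 0 L ≫ c 0 0 = x0.1 0 0 L := h1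
    have h3 : x0.1 0 0 = η := inc'_same 0 0 rfl η
    rw [h.topL, h3] at h2
    have h4 : (0 : T L ⟶ E 0 0) = unitC T L L ≫ g.inv := h2
    rw [unitC_self, Category.id_comp] at h4
    apply hL0
    rw [← g.inv_hom_id, ← h4, Limits.zero_comp]
  · -- generated by `x0`
    intro s
    obtain ⟨x, rfl⟩ := Submodule.Quotient.mk_surjective _ s
    let a : CAlg T := fun w l => (x.1 0 0 w ≫ g.hom) ≫ unitC T L l
    refine ⟨a, ?_⟩
    rw [← Submodule.Quotient.mk_smul]
    congr 1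
    apply Subtype.ext
    funext j i
    by_cases hji : j + i = 0
    · obtain ⟨rfl, rfl⟩ : j = 0 ∧ i = 0 := by lia
      have h3 : x0.1 0 0 = η := inc'_same 0 0 rfl η
      show a • x0.1 0 0 = x.1 0 0
      rw [h3]
      ext w
      show ∑ l, ((x.1 0 0 w ≫ g.hom) ≫ unitC T L l) ≫ unitC T l L ≫ g.inv = x.1 0 0 w
      have h4 : ∀ l, ((x.1 0 0 w ≫ g.hom) ≫ unitC T L l) ≫ unitC T l L ≫ g.inv =
          (x.1 0 0 w ≫ g.hom) ≫ (unitC T L l ≫ (unitC T l L ≫ g.inv)) := by
        intro l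
        rw [Category.assoc]
      rw [Finset.sum_congr rfl fun l _ => h4 l, ← Preadditive.comp_sum, sum_unitC_comp,
        unitC_self, Category.id_comp, Category.assoc, g.hom_inv_id, Category.comp_id]
    · exact ((a • x0).2 j i hji).trans (x.2 j i hji).symm

end P195D
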