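import Mathlib

/-!
# P195: the two-block category of a linear category with an endofunctor
-/

namespace P195D

open CategoryTheory

universe v u

variable {D : Type u} [Category.{v} D] [Preadditive D]

/-- objects of the two-block category; `b = false` is block `Y`, `b = true` is block `X` -/
structure Two (Φ : D ⥤ D) where
  b : Bool
  o : D

/-- the target of a morphism as seen from block `s` -/
def tgt (Φ : D ⥤ D) : Bool → Bool → D → D
  | false, false, B => B
  | false, true, B => B
  | true, true, B => B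
  | true, false, B => Φ.obj B

/-- transport of a morphism to the point of view of block `s` -/
def lft (Φ : D ⥤ D) : ∀ (s b c : Bool) {B C : D}, (B ⟶ tgt Φ b c C) → (tgt Φ s b B ⟶ tgt Φ s c C)
  | false, false, false, _, _, y => y
  | false, false, true, _, _, y => y
  | false, true, true, _, _, y => y
  | false, true, false, _, _, _ => 0
  | true, false, false, _, _, y => Φ.map y
  | true, false, true, _, _, _ => 0
  | true, true, true, _, _, y => y
  | true, true, false, _, _, y => y

/-- identities -/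
def idt (Φ : D ⥤ D) : ∀ (b : Bool) (B : D), B ⟶ tgt Φ b b B
  | false, B => 𝟙 B
  | true, B => 𝟙 B

variable (Φ : D ⥤ D) [Φ.Additive]

theorem lft_comp : ∀ (s b c e : Bool) {B C E : D} (y : B ⟶ tgt Φ b c C) (z : C ⟶ tgt Φ c e E),
    lft Φ s b e (y ≫ lft Φ b c e z) = lft Φ s b c y ≫ lft Φ s c e z
  | false, false, false, false, _, _, _, _, _ => rfl
  | false, false, false, true, _, _, _, _, _ => rfl
  | false, false, true, false, B, C, E, y, z => by
    show (show B ⟶ C from y) ≫ (0 : C ⟶ E) = (show B ⟶ C from y) ≫ (0 : C ⟶ E)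
    rfl
  | false, false, true, true, _, _, _, _, _ => rfl
  | false, true, false, false, B, C, E, y, z => by
    show (0 : B ⟶ E) = (0 : B ⟶ C) ≫ (show C ⟶ E from z)
    rw [Limits.zero_comp]
  | false, true, false, true, B, C, E, y, z => by
    show (show B ⟶ Φ.obj C from y) ≫ (0 : Φ.obj C ⟶ E) = (0 : B ⟶ C) ≫ (show C ⟶ E from z)
    rw [Limits.zero_comp, Limits.comp_zero]
  | false, true, true, false, B, C, E, y, z => by
    show (0 : B ⟶ E) = (show B ⟶ C from y) ≫ (0 : C ⟶ E)
    rw [Limits.comp_zero]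
  | false, true, true, true, _, _, _, _, _ => rfl
  | true, false, false, false, _, _, _, _, _ => Φ.map_comp _ _
  | true, false, false, true, B, C, E, y, z => by
    show (0 : Φ.obj B ⟶ E) = (Φ.map (show B ⟶ C from y)) ≫ (0 : Φ.obj C ⟶ E)
    rw [Limits.comp_zero]
  | true, false, true, false, B, C, E, y, z => by
    show Φ.map ((show B ⟶ C from y) ≫ (0 : C ⟶ E)) =
      (0 : Φ.obj B ⟶ C) ≫ (show C ⟶ Φ.obj E from z)
    rw [Limits.zero_comp, Limits.comp_zero, Φ.map_zero]
  | true, false, true, true, B, C, E, y, z => by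
    show (0 : Φ.obj B ⟶ E) = (0 : Φ.obj B ⟶ C) ≫ (show C ⟶ E from z)
    rw [Limits.zero_comp]
  | true, true, false, false, _, _, _, _, _ => rfl
  | true, true, false, true, B, C, E, y, z => by
    show (show B ⟶ Φ.obj C from y) ≫ (0 : Φ.obj C ⟶ E) =
      (show B ⟶ Φ.obj C from y) ≫ (0 : Φ.obj C ⟶ E)
    rfl
  | true, true, true, false, _, _, _, _, _ => rfl
  | true, true, true, true, _, _, _, _, _ => rfl

theorem lft_add : ∀ (s b c : Bool) {B C : D} (y z : B ⟶ tgt Φ b c C),
    lft Φ s b c (y + z) = lft Φ s b c y + lft Φ s b c z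
  | false, false, false, _, _, _, _ => rfl
  | false, false, true, _, _, _, _ => rfl
  | false, true, true, _, _, _, _ => rfl
  | false, true, false, _, _, _, _ => (add_zero _).symm
  | true, false, false, _, _, _, _ => Φ.map_add
  | true, false, true, _, _, _, _ => (add_zero _).symm
  | true, true, true, _, _, _, _ => rfl
  | true, true, false, _, _, _, _ => rfl

omit [Φ.Additive] in
theorem lft_id : ∀ (s b : Bool) (B : D), lft Φ s b b (idt Φ b B) = 𝟙 (tgt Φ s b B)
  | false, false, _ => rfl
  | false, true, _ => rfl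
  | true, true, _ => rfl
  | true, false, _ => Φ.map_id _

omit [Φ.Additive] in
theorem idt_lft : ∀ (b c : Bool) {B C : D} (y : B ⟶ tgt Φ b c C),
    idt Φ b B ≫ lft Φ b b c y = y
  | false, false, _, _, _ => Category.id_comp _
  | false, true, _, _, _ => Category.id_comp _
  | true, false, _, _, _ => Category.id_comp _
  | true, true, _, _, _ => Category.id_comp _

instance twoCategory : Category.{v} (Two Φ) where
  Hom A B := A.o ⟶ tgt Φ A.b B.b B.o
  id A := idt Φ A.b A.o
  comp {A B C} x y := x ≫ lft Φ A.b B.b C.b y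
  id_comp {A B} x := idt_lft Φ A.b B.b x
  comp_id {A B} x := by
    show x ≫ lft Φ A.b B.b B.b (idt Φ B.b B.o) = x
    rw [lft_id, Category.comp_id]
  assoc {A B C E} x y z := by
    show (x ≫ lft Φ A.b B.b C.b y) ≫ lft Φ A.b C.b E.b z =
      x ≫ lft Φ A.b B.b E.b (y ≫ lft Φ B.b C.b E.b z)
    rw [lft_comp, Category.assoc]

theorem two_comp {A B C : Two Φ} (x : A ⟶ B) (y : B ⟶ C) :
    (x ≫ y : A ⟶ C) = (show A.o ⟶ tgt Φ A.b C.b C.o from
      (show A.o ⟶ tgt Φ A.b B.b B.o from x) ≫ lft Φ A.b B.b C.b y) := rfl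

instance twoPreadditive : Preadditive (Two Φ) where
  homGroup A B := inferInstanceAs (AddCommGroup (A.o ⟶ tgt Φ A.b B.b B.o))
  add_comp A B C x x' y := by
    show ((show A.o ⟶ tgt Φ A.b B.b B.o from x) + x') ≫ lft Φ A.b B.b C.b y = _
    exact Preadditive.add_comp _ _ _ _ _ _
  comp_add A B C x y y' := by
    show (show A.o ⟶ tgt Φ A.b B.b B.o from x) ≫
      lft Φ A.b B.b C.b ((show B.o ⟶ tgt Φ B.b C.b C.o from y) + y') = _
    rw [lft_add]
    exact Preadditive.comp_add _ _ _ _ _ _

section linear

variable {k : Type} [Field k] [Linear k D] [Φ.Linear k]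

theorem lft_smul : ∀ (s b c : Bool) {B C : D} (r : k) (y : B ⟶ tgt Φ b c C),
    lft Φ s b c (r • y) = r • lft Φ s b c y
  | false, false, false, _, _, _, _ => rfl
  | false, false, true, _, _, _, _ => rfl
  | false, true, true, _, _, _, _ => rfl
  | false, true, false, _, _, _, _ => (smul_zero _).symm
  | true, false, false, _, _, _, _ => Φ.map_smul _ _
  | true, false, true, _, _, _, _ => (smul_zero _).symm
  | true, true, true, _, _, _, _ => rfl
  | true, true, false, _, _, _, _ => rfl

instance twoLinear : Linear k (Two Φ) where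
  homModule A B := inferInstanceAs (Module k (A.o ⟶ tgt Φ A.b B.b B.o))
  smul_comp A B C r x y := by
    show (r • (show A.o ⟶ tgt Φ A.b B.b B.o from x)) ≫ lft Φ A.b B.b C.b y = _
    exact Linear.smul_comp _ _ _ _ _ _
  comp_smul A B C x r y := by
    show (show A.o ⟶ tgt Φ A.b B.b B.o from x) ≫
      lft Φ A.b B.b C.b (r • (show B.o ⟶ tgt Φ B.b C.b C.o from y)) = _
    rw [lft_smul]
    exact Linear.comp_smul _ _ _ _ _ _

end linear

end P195D
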