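import Mathlib
import Vale.Agent.P195D.TwoCat
import Vale.Agent.P195D.Double

/-!
# P195: the two-block double complex, reduction of the Auslander-Reiten counterexample to
# elementwise exactness statements in a linear category with a twist
-/

namespace P195D

open CategoryTheory

universe v u

variable {D : Type u} [Category.{v} D] [Preadditive D] {Φ : D ⥤ D} {ι : Type}

/-- the complexes `PP n` (differential `d`, homological degree `i`) and the maps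
`c n : PP (n + 1) → Φ (PP n)` -/
structure Cols (Φ : D ⥤ D) where
  PP : ℕ → ℕ → D
  d : ∀ n i, PP n (i + 1) ⟶ PP n i
  c : ∀ n i, PP (n + 1) i ⟶ Φ.obj (PP n i)

/-- forget `PP 0` -/
def Cols.shift (K : Cols Φ) : Cols Φ :=
  ⟨fun n => K.PP (n + 1), fun n => K.d (n + 1), fun n => K.c (n + 1)⟩

/-- the conditions on the complexes `PP n`; `T none` is the extra object `L`, the objects
`T (some u)` form `T_X` -/
structure Cols.Good (T : Option ι → D) (K : Cols Φ) : Prop where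
  dd : ∀ n i, K.d n (i + 1) ≫ K.d n i = 0
  dc : ∀ n i, K.d (n + 1) i ≫ K.c n i = K.c n (i + 1) ≫ Φ.map (K.d n i)
  add : ∀ n i, InAdd (fun u : ι => T (some u)) (K.PP n i)
  zero : ∀ n i, Limits.IsZero (K.PP n (i + 4))
  p1 : ∀ v n i (x : T v ⟶ K.PP n (i + 1)), x ≫ K.d n i = 0 → ∃ y, y ≫ K.d n (i + 1) = x
  p2 : ∀ u n i (x : T (some u) ⟶ Φ.obj (K.PP n (i + 1))), x ≫ Φ.map (K.d n i) = 0 →
    ∃ y, y ≫ Φ.map (K.d n (i + 1)) = x
  p3 : ∀ u n (x : T (some u) ⟶ K.PP (n + 1) 0) (z : T (some u) ⟶ Φ.obj (K.PP n 1)),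
    x ≫ K.c n 0 = z ≫ Φ.map (K.d n 0) → ∃ t, x = t ≫ K.d (n + 1) 0
  p4 : ∀ u n (x : T (some u) ⟶ Φ.obj (K.PP n 0)), ∃ (y : T (some u) ⟶ K.PP (n + 1) 0)
    (t : T (some u) ⟶ Φ.obj (K.PP n 1)), x = y ≫ K.c n 0 + t ≫ Φ.map (K.d n 0)
  p5 : ∀ v n (x : K.PP n 0 ⟶ T v), K.d n 0 ≫ x = 0 → x = 0
  p5' : ∀ v n i (x : K.PP n (i + 1) ⟶ T v), i + 1 < 3 → K.d n (i + 1) ≫ x = 0 →
    ∃ y, K.d n i ≫ y = x
  p6 : ∀ v n (x : K.PP n 0 ⟶ Φ.obj (T v)), K.d n 0 ≫ x = 0 → x = 0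
  p6' : ∀ v n i (x : K.PP n (i + 1) ⟶ Φ.obj (T v)), i + 1 < 3 → K.d n (i + 1) ≫ x = 0 →
    ∃ y, K.d n i ≫ y = x
  p7 : ∀ v n (x : K.PP n 3 ⟶ T v) (z : K.PP (n + 1) 2 ⟶ Φ.obj (T v)),
    K.c n 3 ≫ Φ.map x = K.d (n + 1) 2 ≫ z → ∃ t, x = K.d n 2 ≫ t
  p8 : ∀ v n (x : K.PP (n + 1) 3 ⟶ Φ.obj (T v)), ∃ (y : K.PP n 3 ⟶ T v)
    (t : K.PP (n + 1) 2 ⟶ Φ.obj (T v)), x = K.c n 3 ≫ Φ.map y + K.d (n + 1) 2 ≫ t

theorem Cols.Good.shift {T : Option ι → D} {K : Cols Φ} (h : K.Good T) : K.shift.Good T where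
  dd n i := h.dd (n + 1) i
  dc n i := h.dc (n + 1) i
  add n i := h.add (n + 1) i
  zero n i := h.zero (n + 1) i
  p1 v n i := h.p1 v (n + 1) i
  p2 u n i := h.p2 u (n + 1) i
  p3 u n := h.p3 u (n + 1)
  p4 u n := h.p4 u (n + 1)
  p5 v n := h.p5 v (n + 1)
  p5' v n i := h.p5' v (n + 1) i
  p6 v n := h.p6 v (n + 1)
  p6' v n i := h.p6' v (n + 1) i
  p7 v n := h.p7 v (n + 1)
  p8 v n := h.p8 v (n + 1)

/-- the complex `QQ` resolving the simple object at `L`, with the map `c0 : PP 0 → Φ QQ` -/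
structure Start (K : Cols Φ) where
  Q : ℕ → D
  dQ : ∀ i, Q (i + 1) ⟶ Q i
  c0 : ∀ i, K.PP 0 i ⟶ Φ.obj (Q i)

/-- the conditions on `QQ` -/
structure Start.Good (T : Option ι → D) {K : Cols Φ} (S : Start K) : Prop where
  dd : ∀ i, S.dQ (i + 1) ≫ S.dQ i = 0
  dc : ∀ i, K.d 0 i ≫ S.c0 i = S.c0 (i + 1) ≫ Φ.map (S.dQ i)
  add : ∀ i, InAdd T (S.Q i)
  zero : ∀ i, Limits.IsZero (S.Q (i + 4))
  corner : Nonempty (S.Q 0 ≅ T none)
  q1 : ∀ v i (x : T v ⟶ S.Q (i + 1)), x ≫ S.dQ i = 0 → ∃ y, y ≫ S.dQ (i + 1) = x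
  q2 : ∀ u (x : T (some u) ⟶ S.Q 0), ∃ y, x = y ≫ S.dQ 0
  q3 : ∀ y : T none ⟶ S.Q 1, y ≫ S.dQ 0 = 0
  q4 : ∀ u i (x : T (some u) ⟶ Φ.obj (S.Q (i + 1))), x ≫ Φ.map (S.dQ i) = 0 →
    ∃ y, y ≫ Φ.map (S.dQ (i + 1)) = x
  q5 : ∀ u (x : T (some u) ⟶ K.PP 0 0) (z : T (some u) ⟶ Φ.obj (S.Q 1)),
    x ≫ S.c0 0 = z ≫ Φ.map (S.dQ 0) → ∃ t, x = t ≫ K.d 0 0
  q6 : ∀ u (x : T (some u) ⟶ Φ.obj (S.Q 0)), ∃ (y : T (some u) ⟶ K.PP 0 0)
    (t : T (some u) ⟶ Φ.obj (S.Q 1)), x = y ≫ S.c0 0 + t ≫ Φ.map (S.dQ 0)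
  q7 : ∀ v (x : S.Q 0 ⟶ T v), S.dQ 0 ≫ x = 0 → x = 0
  q7' : ∀ v i (x : S.Q (i + 1) ⟶ T v), i + 1 < 3 → S.dQ (i + 1) ≫ x = 0 → ∃ y, S.dQ i ≫ y = x
  q8 : ∀ u (x : S.Q 3 ⟶ T (some u)), ∃ t, x = S.dQ 2 ≫ t
  q9 : ∀ v (x : S.Q 3 ⟶ T v) (z : K.PP 0 2 ⟶ Φ.obj (T v)),
    S.c0 3 ≫ Φ.map x = K.d 0 2 ≫ z → ∃ t, x = S.dQ 2 ≫ t
  q10 : ∀ v (x : K.PP 0 3 ⟶ Φ.obj (T v)), ∃ (y : S.Q 3 ⟶ T v)
    (t : K.PP 0 2 ⟶ Φ.obj (T v)), x = S.c0 3 ≫ Φ.map y + K.d 0 2 ≫ t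

/-- objects of the columns `j + 1` -/
def EX : Cols Φ → ℕ → ℕ → Two Φ
  | K, 0, i => ⟨true, K.PP 0 i⟩
  | K, 1, i => ⟨false, K.PP 0 i⟩
  | K, j + 2, i => EX K.shift j i

variable [Φ.Additive]

/-- vertical differentials -/
def dX : ∀ (K : Cols Φ) (j i : ℕ), EX K j (i + 1) ⟶ EX K j i
  | K, 0, i => -(K.d 0 i)
  | K, 1, i => K.d 0 i
  | K, j + 2, i => dX K.shift j i

/-- horizontal differentials -/
def cX : ∀ (K : Cols Φ) (j i : ℕ), EX K (j + 1) i ⟶ EX K j i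
  | K, 0, i => 𝟙 (K.PP 0 i)
  | K, 1, i => K.c 0 i
  | K, j + 2, i => cX K.shift j i

/-- all objects -/
def EE {K : Cols Φ} (S : Start K) : ℕ → ℕ → Two Φ
  | 0, i => ⟨false, S.Q i⟩
  | j + 1, i => EX K j i

/-- all vertical differentials -/
def dE {K : Cols Φ} (S : Start K) : ∀ j i : ℕ, EE S j (i + 1) ⟶ EE S j i
  | 0, i => S.dQ i
  | j + 1, i => dX K j i

/-- all horizontal differentials -/
def cE {K : Cols Φ} (S : Start K) : ∀ j i : ℕ, EE S (j + 1) i ⟶ EE S j i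
  | 0, i => S.c0 i
  | j + 1, i => cX K j i

/-- the objects of the algebra -/
def TT (Φ : D ⥤ D) (T : Option ι → D) : Option ι ⊕ ι → Two Φ
  | Sum.inl v => ⟨false, T v⟩
  | Sum.inr u => ⟨true, T (some u)⟩

variable {T : Option ι → D}

theorem dX_dX : ∀ (K : Cols Φ) (_ : K.Good T) (j i : ℕ), dX K j (i + 1) ≫ dX K j i = 0
  | K, hK, 0, i => by
    show (-(K.d 0 (i + 1))) ≫ (-(K.d 0 i)) = 0
    rw [Preadditive.neg_comp, Preadditive.comp_neg, hK.dd, neg_zero, neg_zero]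
  | K, hK, 1, i => hK.dd 0 i
  | K, hK, j + 2, i => dX_dX K.shift hK.shift j i

theorem cX_cX : ∀ (K : Cols Φ) (j i : ℕ), cX K (j + 1) i ≫ cX K j i = 0
  | K, 0, i => by
    show K.c 0 i ≫ (0 : Φ.obj (K.PP 0 i) ⟶ K.PP 0 i) = 0
    exact Limits.comp_zero
  | K, 1, i => by
    show 𝟙 (K.PP 1 i) ≫ (0 : K.PP 1 i ⟶ K.PP 0 i) = 0
    exact Limits.comp_zero
  | K, j + 2, i => cX_cX K.shift j i

theorem dX_cX : ∀ (K : Cols Φ) (_ : K.Good T) (j i : ℕ),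
    dX K (j + 1) i ≫ cX K j i + cX K j (i + 1) ≫ dX K j i = 0
  | K, hK, 0, i => by
    show K.d 0 i ≫ 𝟙 (K.PP 0 i) + 𝟙 (K.PP 0 (i + 1)) ≫ (-(K.d 0 i)) = 0
    rw [Category.comp_id, Category.id_comp, add_neg_cancel]
  | K, hK, 1, i => by
    show (-(K.d 1 i)) ≫ K.c 0 i + K.c 0 (i + 1) ≫ Φ.map (K.d 0 i) = 0
    rw [Preadditive.neg_comp, ← hK.dc, neg_add_cancel]
  | K, hK, j + 2, i => dX_cX K.shift hK.shift j i

theorem colX : ∀ (K : Cols Φ) (_ : K.Good T) (w : Option ι ⊕ ι) (j i : ℕ)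
    (x : TT Φ T w ⟶ EX K j (i + 1)), x ≫ dX K j i = 0 → ∃ y, y ≫ dX K j (i + 1) = x
  | K, hK, Sum.inl v, 0, i, x, hx => by
    change T v ⟶ K.PP 0 (i + 1) at x
    change x ≫ (-(K.d 0 i)) = 0 at hx
    rw [Preadditive.comp_neg, neg_eq_zero] at hx
    obtain ⟨y, hy⟩ := hK.p1 v 0 i x hx
    refine ⟨-y, ?_⟩
    show (-y) ≫ (-(K.d 0 (i + 1))) = x
    rw [Preadditive.neg_comp, Preadditive.comp_neg, neg_neg, hy]
  | K, hK, Sum.inr u, 0, i, x, hx => by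
    change T (some u) ⟶ K.PP 0 (i + 1) at x
    change x ≫ (-(K.d 0 i)) = 0 at hx
    rw [Preadditive.comp_neg, neg_eq_zero] at hx
    obtain ⟨y, hy⟩ := hK.p1 (some u) 0 i x hx
    refine ⟨-y, ?_⟩
    show (-y) ≫ (-(K.d 0 (i + 1))) = x
    rw [Preadditive.neg_comp, Preadditive.comp_neg, neg_neg, hy]
  | K, hK, Sum.inl v, 1, i, x, hx => hK.p1 v 0 i x hx
  | K, hK, Sum.inr u, 1, i, x, hx => hK.p2 u 0 i x hx
  | K, hK, w, j + 2, i, x, hx => colX K.shift hK.shift w j i x hx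

theorem rowX : ∀ (K : Cols Φ) (_ : K.Good T) (w : Option ι ⊕ ι) (j : ℕ)
    (x : TT Φ T w ⟶ EX K (j + 1) 0) (z : TT Φ T w ⟶ EX K j 1), x ≫ cX K j 0 + z ≫ dX K j 0 = 0 →
    ∃ (y : TT Φ T w ⟶ EX K (j + 1 + 1) 0) (t : TT Φ T w ⟶ EX K (j + 1) 1),
      x = y ≫ cX K (j + 1) 0 + t ≫ dX K (j + 1) 0
  | K, hK, Sum.inl v, 0, x, z, hx => by
    change T v ⟶ K.PP 0 0 at x
    change T v ⟶ K.PP 0 1 at z
    change x ≫ 𝟙 (K.PP 0 0) + z ≫ (-(K.d 0 0)) = 0 at hx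
    refine ⟨(0 : T v ⟶ K.PP 1 0), z, ?_⟩
    show x = (0 : T v ⟶ K.PP 1 0) ≫ (0 : K.PP 1 0 ⟶ K.PP 0 0) + z ≫ K.d 0 0
    rw [Category.comp_id, Preadditive.comp_neg, ← sub_eq_add_neg, sub_eq_zero] at hx
    rw [Limits.comp_zero, zero_add, hx]
  | K, hK, Sum.inr u, 0, x, z, hx => hK.p4 u 0 x
  | K, hK, Sum.inl v, 1, x, z, hx => by
    change T v ⟶ K.PP 1 0 at x
    refine ⟨x, (0 : T v ⟶ K.PP 1 1), ?_⟩
    show x = x ≫ 𝟙 (K.PP 1 0) + (0 : T v ⟶ K.PP 1 1) ≫ (-(K.d 1 0))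
    rw [Category.comp_id, Limits.zero_comp, add_zero]
  | K, hK, Sum.inr u, 1, x, z, hx => by
    change T (some u) ⟶ K.PP 1 0 at x
    change T (some u) ⟶ Φ.obj (K.PP 0 1) at z
    change x ≫ K.c 0 0 + z ≫ Φ.map (K.d 0 0) = 0 at hx
    obtain ⟨t, ht⟩ := hK.p3 u 0 x (-z) (by
      rw [Preadditive.neg_comp]
      exact eq_neg_of_add_eq_zero_left hx)
    refine ⟨(0 : T (some u) ⟶ Φ.obj (K.PP 1 0)), -t, ?_⟩
    show x = (0 : T (some u) ⟶ Φ.obj (K.PP 1 0)) ≫ (0 : Φ.obj (K.PP 1 0) ⟶ K.PP 1 0) +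
      (-t) ≫ (-(K.d 1 0))
    rw [Limits.comp_zero, zero_add, Preadditive.neg_comp, Preadditive.comp_neg, neg_neg]
    exact ht
  | K, hK, w, j + 2, x, z, hx => rowX K.shift hK.shift w j x z hx

theorem col0X : ∀ (K : Cols Φ) (_ : K.Good T) (w : Option ι ⊕ ι) (j : ℕ)
    (x : EX K j 0 ⟶ TT Φ T w), dX K j 0 ≫ x = 0 → x = 0
  | K, hK, Sum.inl v, 0, x, hx => by
    change K.PP 0 0 ⟶ Φ.obj (T v) at x
    change (-(K.d 0 0)) ≫ x = 0 at hx
    rw [Preadditive.neg_comp, neg_eq_zero] at hx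
    exact hK.p6 v 0 x hx
  | K, hK, Sum.inr u, 0, x, hx => by
    change K.PP 0 0 ⟶ T (some u) at x
    change (-(K.d 0 0)) ≫ x = 0 at hx
    rw [Preadditive.neg_comp, neg_eq_zero] at hx
    exact hK.p5 (some u) 0 x hx
  | K, hK, Sum.inl v, 1, x, hx => hK.p5 v 0 x hx
  | K, hK, Sum.inr u, 1, x, hx => hK.p5 (some u) 0 x hx
  | K, hK, w, j + 2, x, hx => col0X K.shift hK.shift w j x hx

theorem col1X : ∀ (K : Cols Φ) (_ : K.Good T) (w : Option ι ⊕ ι) (j i : ℕ)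
    (x : EX K j (i + 1) ⟶ TT Φ T w), i + 1 < 3 → dX K j (i + 1) ≫ x = 0 → ∃ y, dX K j i ≫ y = x
  | K, hK, Sum.inl v, 0, i, x, hi, hx => by
    change K.PP 0 (i + 1) ⟶ Φ.obj (T v) at x
    change (-(K.d 0 (i + 1))) ≫ x = 0 at hx
    rw [Preadditive.neg_comp, neg_eq_zero] at hx
    obtain ⟨y, hy⟩ := hK.p6' v 0 i x hi hx
    refine ⟨-y, ?_⟩
    show (-(K.d 0 i)) ≫ (-y) = x
    rw [Preadditive.neg_comp, Preadditive.comp_neg, neg_neg, hy]
  | K, hK, Sum.inr u, 0, i, x, hi, hx => by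
    change K.PP 0 (i + 1) ⟶ T (some u) at x
    change (-(K.d 0 (i + 1))) ≫ x = 0 at hx
    rw [Preadditive.neg_comp, neg_eq_zero] at hx
    obtain ⟨y, hy⟩ := hK.p5' (some u) 0 i x hi hx
    refine ⟨-y, ?_⟩
    show (-(K.d 0 i)) ≫ (-y) = x
    rw [Preadditive.neg_comp, Preadditive.comp_neg, neg_neg, hy]
  | K, hK, Sum.inl v, 1, i, x, hi, hx => hK.p5' v 0 i x hi hx
  | K, hK, Sum.inr u, 1, i, x, hi, hx => hK.p5' (some u) 0 i x hi hx
  | K, hK, w, j + 2, i, x, hi, hx => col1X K.shift hK.shift w j i x hi hx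

theorem row1X : ∀ (K : Cols Φ) (_ : K.Good T) (w : Option ι ⊕ ι) (j : ℕ)
    (x : EX K (j + 1) 3 ⟶ TT Φ T w) (z : EX K (j + 1 + 1) 2 ⟶ TT Φ T w),
    cX K (j + 1) 3 ≫ x + dX K (j + 1 + 1) 2 ≫ z = 0 →
    ∃ (y : EX K j 3 ⟶ TT Φ T w) (t : EX K (j + 1) 2 ⟶ TT Φ T w),
      x = cX K j 3 ≫ y + dX K (j + 1) 2 ≫ t
  | K, hK, Sum.inl v, 0, x, z, hx => by
    change K.PP 0 3 ⟶ T v at x
    change K.PP 1 2 ⟶ Φ.obj (T v) at z
    change K.c 0 3 ≫ Φ.map x + (-(K.d 1 2)) ≫ z = 0 at hx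
    rw [Preadditive.neg_comp, ← sub_eq_add_neg, sub_eq_zero] at hx
    obtain ⟨t, ht⟩ := hK.p7 v 0 x z hx
    refine ⟨(0 : K.PP 0 3 ⟶ Φ.obj (T v)), t, ?_⟩
    show x = 𝟙 (K.PP 0 3) ≫ (0 : K.PP 0 3 ⟶ T v) + K.d 0 2 ≫ t
    rw [Limits.comp_zero, zero_add]
    exact ht
  | K, hK, Sum.inr u, 0, x, z, hx => by
    change K.PP 0 3 ⟶ T (some u) at x
    refine ⟨x, (0 : K.PP 0 2 ⟶ T (some u)), ?_⟩
    show x = 𝟙 (K.PP 0 3) ≫ x + K.d 0 2 ≫ (0 : K.PP 0 2 ⟶ T (some u))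
    rw [Limits.comp_zero, add_zero, Category.id_comp]
  | K, hK, Sum.inl v, 1, x, z, hx => by
    change K.PP 1 3 ⟶ Φ.obj (T v) at x
    obtain ⟨y, t, hyt⟩ := hK.p8 v 0 x
    refine ⟨y, -t, ?_⟩
    show x = K.c 0 3 ≫ Φ.map y + (-(K.d 1 2)) ≫ (-t)
    rw [Preadditive.neg_comp, Preadditive.comp_neg, neg_neg]
    exact hyt
  | K, hK, Sum.inr u, 1, x, z, hx => by
    change K.PP 1 3 ⟶ T (some u) at x
    change K.PP 1 2 ⟶ T (some u) at z
    change 𝟙 (K.PP 1 3) ≫ x + K.d 1 2 ≫ z = 0 at hx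
    refine ⟨(0 : K.PP 0 3 ⟶ T (some u)), z, ?_⟩
    show x = K.c 0 3 ≫ (0 : Φ.obj (K.PP 0 3) ⟶ T (some u)) + (-(K.d 1 2)) ≫ z
    rw [Limits.comp_zero, zero_add, Preadditive.neg_comp]
    rw [Category.id_comp] at hx
    exact eq_neg_of_add_eq_zero_left hx
  | K, hK, w, j + 2, x, z, hx => row1X K.shift hK.shift w j x z hx

omit [Φ.Additive] in
theorem inAdd_Y [Φ.Additive] {X : D} (h : InAdd T X) : InAdd (TT Φ T) (⟨false, X⟩ : Two Φ) := by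
  obtain ⟨J, hJ, o, p, q, hpq⟩ := h
  refine ⟨J, hJ, fun a => Sum.inl (o a), fun a => p a, fun a => q a, ?_⟩
  exact hpq

omit [Φ.Additive] in
theorem inAdd_X [Φ.Additive] {X : D} (h : InAdd (fun u : ι => T (some u)) X) :
    InAdd (TT Φ T) (⟨true, X⟩ : Two Φ) := by
  obtain ⟨J, hJ, o, p, q, hpq⟩ := h
  refine ⟨J, hJ, fun a => Sum.inr (o a), fun a => p a, fun a => q a, ?_⟩
  exact hpq

omit [Φ.Additive] in
theorem inAdd_some [Φ.Additive] {X : D} (h : InAdd (fun u : ι => T (some u)) X) :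
    InAdd T X := by
  obtain ⟨J, hJ, o, p, q, hpq⟩ := h
  exact ⟨J, hJ, fun a => some (o a), p, q, hpq⟩

theorem isZero_two {X : D} (h : Limits.IsZero X) (b : Bool) :
    Limits.IsZero (⟨b, X⟩ : Two Φ) := by
  rw [Limits.IsZero.iff_id_eq_zero]
  cases b
  · exact (Limits.IsZero.iff_id_eq_zero X).1 h
  · exact (Limits.IsZero.iff_id_eq_zero X).1 h

theorem addX : ∀ (K : Cols Φ) (_ : K.Good T) (j i : ℕ), InAdd (TT Φ T) (EX K j i)
  | K, hK, 0, i => inAdd_X (hK.add 0 i)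
  | K, hK, 1, i => inAdd_Y (inAdd_some (Φ := Φ) (hK.add 0 i))
  | K, hK, j + 2, i => addX K.shift hK.shift j i

theorem zeroX : ∀ (K : Cols Φ) (_ : K.Good T) (j i : ℕ), Limits.IsZero (EX K j (i + 4))
  | K, hK, 0, i => isZero_two (hK.zero 0 i) true
  | K, hK, 1, i => isZero_two (hK.zero 0 i) false
  | K, hK, j + 2, i => zeroX K.shift hK.shift j i

theorem goodDouble {K : Cols Φ} (hK : K.Good T) {S : Start K} (hS : S.Good T) :
    GoodDouble (TT Φ T) (Sum.inl none) (EE S) (dE S) (cE S) where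
  dd j i := by
    cases j with
    | zero => exact hS.dd i
    | succ j => exact dX_dX K hK j i
  cc j i := by
    cases j with
    | zero =>
      show 𝟙 (K.PP 0 i) ≫ (0 : K.PP 0 i ⟶ S.Q i) = 0
      exact Limits.comp_zero
    | succ j => exact cX_cX K j i
  dc j i := by
    cases j with
    | zero =>
      show (-(K.d 0 i)) ≫ S.c0 i + S.c0 (i + 1) ≫ Φ.map (S.dQ i) = 0
      rw [Preadditive.neg_comp, ← hS.dc, neg_add_cancel]
    | succ j => exact dX_cX K hK j i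
  add j i := by
    cases j with
    | zero => exact inAdd_Y (hS.add i)
    | succ j => exact addX K hK j i
  zero j i := by
    cases j with
    | zero => exact isZero_two (hS.zero i) false
    | succ j => exact zeroX K hK j i
  corner := by
    obtain ⟨g⟩ := hS.corner
    exact ⟨⟨g.hom, g.inv, g.hom_inv_id, g.inv_hom_id⟩⟩
  col w j i x hx := by
    cases j with
    | zero =>
      cases w with
      | inl v => exact hS.q1 v i x hx
      | inr u => exact hS.q4 u i x hx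
    | succ j => exact colX K hK w j i x hx
  row w j x z hx := by
    cases j with
    | zero =>
      cases w with
      | inl v =>
        change T v ⟶ K.PP 0 0 at x
        refine ⟨x, (0 : T v ⟶ K.PP 0 1), ?_⟩
        show x = x ≫ 𝟙 (K.PP 0 0) + (0 : T v ⟶ K.PP 0 1) ≫ (-(K.d 0 0))
        rw [Category.comp_id, Limits.zero_comp, add_zero]
      | inr u =>
        change T (some u) ⟶ K.PP 0 0 at x
        change T (some u) ⟶ Φ.obj (S.Q 1) at z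
        change x ≫ S.c0 0 + z ≫ Φ.map (S.dQ 0) = 0 at hx
        obtain ⟨t, ht⟩ := hS.q5 u x (-z) (by
          rw [Preadditive.neg_comp]
          exact eq_neg_of_add_eq_zero_left hx)
        refine ⟨(0 : T (some u) ⟶ Φ.obj (K.PP 0 0)), -t, ?_⟩
        show x = (0 : T (some u) ⟶ Φ.obj (K.PP 0 0)) ≫ (0 : Φ.obj (K.PP 0 0) ⟶ K.PP 0 0) +
          (-t) ≫ (-(K.d 0 0))
        rw [Limits.comp_zero, zero_add, Preadditive.neg_comp, Preadditive.comp_neg, neg_neg]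
        exact ht
    | succ j => exact rowX K hK w j x z hx
  top w hw x := by
    cases w with
    | inl v =>
      cases v with
      | none => exact absurd rfl hw
      | some u =>
        obtain ⟨y, hy⟩ := hS.q2 u x
        refine ⟨y, (0 : T (some u) ⟶ K.PP 0 0), ?_⟩
        show x = y ≫ S.dQ 0 + (0 : T (some u) ⟶ K.PP 0 0) ≫ (0 : K.PP 0 0 ⟶ S.Q 0)
        rw [Limits.comp_zero, add_zero]
        exact hy
    | inr u =>
      obtain ⟨y, t, hyt⟩ := hS.q6 u x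
      refine ⟨t, y, ?_⟩
      show x = t ≫ Φ.map (S.dQ 0) + y ≫ S.c0 0
      rw [add_comm]
      exact hyt
  topL y z := by
    change T none ⟶ S.Q 1 at y
    change T none ⟶ K.PP 0 0 at z
    show y ≫ S.dQ 0 + z ≫ (0 : K.PP 0 0 ⟶ S.Q 0) = 0
    rw [Limits.comp_zero, add_zero]
    exact hS.q3 y
  col0 w j x hx := by
    cases j with
    | zero =>
      cases w with
      | inl v => exact hS.q7 v x hx
      | inr u => exact hS.q7 (some u) x hx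
    | succ j => exact col0X K hK w j x hx
  col1 w j i x hi hx := by
    cases j with
    | zero =>
      cases w with
      | inl v => exact hS.q7' v i x hi hx
      | inr u => exact hS.q7' (some u) i x hi hx
    | succ j => exact col1X K hK w j i x hi hx
  row0 w x z hx := by
    cases w with
    | inl v =>
      change S.Q 3 ⟶ T v at x
      change K.PP 0 2 ⟶ Φ.obj (T v) at z
      change S.c0 3 ≫ Φ.map x + (-(K.d 0 2)) ≫ z = 0 at hx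
      rw [Preadditive.neg_comp, ← sub_eq_add_neg, sub_eq_zero] at hx
      obtain ⟨t, ht⟩ := hS.q9 v x z hx
      exact ⟨t, ht.symm⟩
    | inr u =>
      obtain ⟨t, ht⟩ := hS.q8 u x
      exact ⟨t, ht.symm⟩
  row1 w j x z hx := by
    cases j with
    | zero =>
      cases w with
      | inl v =>
        change K.PP 0 3 ⟶ Φ.obj (T v) at x
        obtain ⟨y, t, hyt⟩ := hS.q10 v x
        refine ⟨y, -t, ?_⟩
        show x = S.c0 3 ≫ Φ.map y + (-(K.d 0 2)) ≫ (-t)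
        rw [Preadditive.neg_comp, Preadditive.comp_neg, neg_neg]
        exact hyt
      | inr u =>
        change K.PP 0 3 ⟶ T (some u) at x
        change K.PP 0 2 ⟶ T (some u) at z
        change 𝟙 (K.PP 0 3) ≫ x + K.d 0 2 ≫ z = 0 at hx
        refine ⟨(0 : S.Q 3 ⟶ T (some u)), z, ?_⟩
        show x = S.c0 3 ≫ (0 : Φ.obj (S.Q 3) ⟶ T (some u)) + (-(K.d 0 2)) ≫ z
        rw [Limits.comp_zero, zero_add, Preadditive.neg_comp]
        rw [Category.id_comp] at hx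
        exact eq_neg_of_add_eq_zero_left hx
    | succ j => exact row1X K hK w j x z hx

/-- the Auslander-Reiten conjecture fails as soon as there are complexes `QQ`, `PP n` with the
elementwise exactness properties of `Cols.Good` and `Start.Good` -/
theorem ar_of_cols {k : Type} [Field k] [Linear k D] [Φ.Linear k] [Fintype ι]
    (T : Option ι → D)
    (hf1 : ∀ v v', Module.Finite k (T v ⟶ T v'))
    (hf2 : ∀ u v, Module.Finite k (T (some u) ⟶ Φ.obj (T v)))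
    (hL : ∀ f : T none ⟶ T none, ∃ a : k, f = a • 𝟙 (T none)) (hL0 : 𝟙 (T none) ≠ 0)
    (K : Cols Φ) (hK : K.Good T) (S : Start K) (hS : S.Good T) :
    ∃ (R : Type v) (_ : Ring R) (_ : Algebra k R) (M : ModuleCat.{v} R),
      Module.Finite k R ∧ Module.Finite R M ∧
      (∀ i, 1 ≤ i → Vale.Agent.P195.ExtVanish M i) ∧ ¬ Module.Projective R M := by
  have hfin : ∀ i j, Module.Finite k (TT Φ T i ⟶ TT Φ T j) := by
    intro i j
    cases i with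
    | inl v =>
      cases j with
      | inl v' => exact hf1 v v'
      | inr u => exact hf1 v (some u)
    | inr u =>
      cases j with
      | inl v => exact hf2 u v
      | inr u' => exact hf1 (some u) (some u')
  exact ar_of_double (k := k) (T := TT Φ T) (L := Sum.inl none) (fun f => hL f) hL0
    (goodDouble hK hS)

end P195D
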