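import Mathlib
import Vale.Agent.P195D.ExtTools
import Vale.Agent.P195.Defs

/-!
# P195: from `Ext(M, M) = 0 = Ext(M, R)` to `Ext(M, M ⊕ R) = 0` and the literal negation
-/

namespace P195D

open CategoryTheory Abelian

universe u

theorem EV.prod_right {A : Type u} [Ring A] {X W V : Type u} [AddCommGroup X] [Module A X]
    [AddCommGroup W] [Module A W] [AddCommGroup V] [Module A V] {n : ℕ}
    (h1 : EV A X W n) (h2 : EV A X V n) : EV A X (W × V) n := by
  rw [ev_iff] at h1 h2 ⊢
  intro x
  have hid : Ext.mk₀ (𝟙 (ModuleCat.of A (W × V))) =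
      (Ext.mk₀ (ModuleCat.ofHom (LinearMap.fst A W V))).comp
        (Ext.mk₀ (ModuleCat.ofHom (LinearMap.inl A W V))) (zero_add 0) +
      (Ext.mk₀ (ModuleCat.ofHom (LinearMap.snd A W V))).comp
        (Ext.mk₀ (ModuleCat.ofHom (LinearMap.inr A W V))) (zero_add 0) := by
    rw [Ext.mk₀_comp_mk₀, Ext.mk₀_comp_mk₀, ← Ext.mk₀_add]
    congr 1
    apply ModuleCat.hom_ext
    ext y
    · show y = y + 0
      rw [add_zero]
    · show (0 : V) = 0 + 0
      rw [add_zero]
    · show (0 : W) = 0 + 0
      rw [add_zero]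
    · show y = 0 + y
      rw [zero_add]
  rw [← Ext.comp_mk₀_id x, hid, Ext.comp_add, ← Ext.comp_assoc_of_second_deg_zero,
    ← Ext.comp_assoc_of_second_deg_zero, h1 (x.comp (Ext.mk₀ _) (add_zero n)),
    h2 (x.comp (Ext.mk₀ _) (add_zero n)), Ext.zero_comp, Ext.zero_comp, add_zero]

end P195D

namespace P195D

open CategoryTheory Abelian

/-- the literal form of the negative answer -/
theorem literal_of_exists {k : Type} [Field k]
    (h : ∃ (R : Type) (_ : Ring R) (_ : Algebra k R) (M : ModuleCat.{0} R),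
      Module.Finite k R ∧ Module.Finite R M ∧
      (∀ i, 1 ≤ i → Vale.Agent.P195.ExtVanish M i) ∧ ¬ Module.Projective R M) :
    ¬ ∀ (Z R : Type) (_ : CommRing Z) (_ : IsArtinianRing Z) (_ : Ring R) (_ : Algebra Z R)
        (M : ModuleCat.{0} R), Module.Finite Z R → Module.Finite R M →
        (∀ i : ℕ, 1 ≤ i → Subsingleton (Ext M (ModuleCat.of R (M × R)) i)) →
        Module.Projective R M := by
  intro hAR
  obtain ⟨R, hR, hA, M, hfR, hfM, hE, hP⟩ := h
  apply hP
  have : IsArtinianRing k := inferInstance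
  refine hAR k R inferInstance inferInstance hR hA M hfR hfM fun i hi => ?_
  exact EV.prod_right (X := M) (W := M) (V := R) (n := i) (hE i hi).1 (hE i hi).2

end P195D
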